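import Mathlib

/-! A transfinite construction scheme with finite increments. -/

set_option autoImplicit false

namespace Crest.Agent.IM

open Set Cardinal

theorem build {σ T ι : Type} [LinearOrder T] [WellFoundedLT T] (κ : Cardinal.{0}) (hκ : ℵ₀ < κ)
    (hT : ∀ t : T, #(Iio t) < κ) (task : T → ι) (stage : σ → T)
    (Inv : Set σ → Prop) (Sat : Set σ → ι → Prop)
    (hchain : ∀ c : Set (Set σ), IsChain (· ⊆ ·) c → (∀ s ∈ c, Inv s) → Inv (⋃₀ c))
    (hmono : ∀ s s' τ, s ⊆ s' → Sat s τ → Sat s' τ)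
    (hstep : ∀ t s τ, Inv s → (∀ a ∈ s, stage a < t) → #s < κ →
      ∃ s', s ⊆ s' ∧ (s' \ s).Finite ∧ Inv s' ∧ (∀ a ∈ s', stage a ≤ t) ∧ Sat s' τ) :
    ∃ s, Inv s ∧ ∀ t, Sat s (task t) := by
  classical
  have hex : ∀ (t : T) (U : Set σ), ∃ s', U ⊆ s' ∧ (s' \ U).Finite ∧
      (Inv U → (∀ a ∈ U, stage a < t) → #U < κ →
        Inv s' ∧ (∀ a ∈ s', stage a ≤ t) ∧ Sat s' (task t)) := by
    intro t U
    by_cases h : Inv U ∧ (∀ a ∈ U, stage a < t) ∧ #U < κ
    · obtain ⟨s', h1, h2, h3⟩ := hstep t U (task t) h.1 h.2.1 h.2.2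
      exact ⟨s', h1, h2, fun _ _ _ => h3⟩
    · exact ⟨U, Subset.rfl, by simp, fun a b c => (h ⟨a, b, c⟩).elim⟩
  choose step hs1 hs2 hs3 using hex
  let S : T → Set σ := WellFounded.fix (wellFounded_lt (α := T))
    (fun t (f : ∀ s, s < t → Set σ) => step t (⋃ s, ⋃ h : s < t, f s h))
  let U : T → Set σ := fun t => ⋃ s, ⋃ _ : s < t, S s
  have hS : ∀ t, S t = step t (U t) := fun t => WellFounded.fix_eq _ _ t
  have hUS : ∀ t, U t ⊆ S t := fun t => by rw [hS]; exact hs1 _ _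
  have hSU : ∀ s t, s < t → S s ⊆ U t := fun s t h a ha =>
    mem_iUnion.2 ⟨s, mem_iUnion.2 ⟨h, ha⟩⟩
  have hSmono : ∀ s t, s ≤ t → S s ⊆ S t := by
    intro s t h
    rcases h.eq_or_lt with rfl | h
    · exact Subset.rfl
    · exact (hSU s t h).trans (hUS t)
  have hfin : ∀ t, (S t \ U t).Finite := fun t => by rw [hS]; exact hs2 _ _
  have hcov : ∀ t, U t ⊆ ⋃ s : Iio t, (S s \ U s) := by
    intro t
    induction t using WellFoundedLT.induction with
    | ind t ih =>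
      intro a ha
      obtain ⟨s, hs⟩ := mem_iUnion.1 ha
      obtain ⟨hst, ha⟩ := mem_iUnion.1 hs
      by_cases h : a ∈ U s
      · obtain ⟨r, hr⟩ := mem_iUnion.1 (ih s hst h)
        exact mem_iUnion.2 ⟨⟨r, lt_trans r.2 hst⟩, hr⟩
      · exact mem_iUnion.2 ⟨⟨s, hst⟩, ha, h⟩
  have hcard : ∀ t, #(U t) < κ := by
    intro t
    refine lt_of_le_of_lt (mk_le_mk_of_subset (hcov t)) ?_
    refine lt_of_le_of_lt mk_iUnion_le_sum_mk ?_
    refine lt_of_le_of_lt (sum_le_sum _ (fun _ => ℵ₀) fun s => (hfin s).lt_aleph0.le) ?_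
    rw [sum_const']
    exact mul_lt_of_lt hκ.le (hT t) hκ
  have hchain' : ∀ P : T → Prop, IsChain (· ⊆ ·) (S '' {s | P s}) := by
    rintro P _ ⟨s, -, rfl⟩ _ ⟨r, -, rfl⟩ -
    rcases le_total s r with h | h
    · exact Or.inl (hSmono _ _ h)
    · exact Or.inr (hSmono _ _ h)
  have hmain : ∀ t, Inv (S t) ∧ (∀ a ∈ S t, stage a ≤ t) ∧ Sat (S t) (task t) := by
    intro t
    induction t using WellFoundedLT.induction with
    | ind t ih =>
      rw [hS]
      refine hs3 t (U t) ?_ ?_ (hcard t)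
      · have : U t = ⋃₀ (S '' {s | s < t}) := by
          ext a; simp [U]
        rw [this]
        refine hchain _ (hchain' _) ?_
        rintro _ ⟨s, hs, rfl⟩
        exact (ih s hs).1
      · intro a ha
        obtain ⟨s, hs⟩ := mem_iUnion.1 ha
        obtain ⟨hst, ha⟩ := mem_iUnion.1 hs
        exact lt_of_le_of_lt ((ih s hst).2.1 a ha) hst
  refine ⟨⋃₀ (S '' {s | True}), hchain _ (hchain' _) ?_, fun t => ?_⟩
  · rintro _ ⟨s, -, rfl⟩
    exact (hmain s).1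
  · exact hmono _ _ _ (subset_sUnion_of_mem ⟨t, trivial, rfl⟩) (hmain t).2.2

end Crest.Agent.IM
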