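import Crest.Agent.IM.Sum

/-! The microscopic rule: a `liminf` uniform base system localised at a class modulo
block density zero. -/

set_option autoImplicit false

namespace Crest.Agent.IM

open Set Filter

variable {G : Type}

/-- finite blocks with fast growing normalisers -/
structure Blocks (blk : G → ℕ) (N : ℕ → ℕ) : Prop where
  fin : ∀ m, {g | blk g = m}.Finite
  bd : ∀ m, {g | blk g = m}.ncard ≤ 2 * N m
  pos : ∀ m, 0 < N m
  mono : Monotone N
  grow : ∀ k, ∀ᶠ n in atTop, k * ({g | blk g ≤ n}.ncard + 1) ≤ N (n + 1)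

/-- number of points in a block -/
noncomputable def cnt (blk : G → ℕ) (Z : Set G) (m : ℕ) : ℕ := (Z ∩ {g | blk g = m}).ncard

/-- number of points up to a block -/
noncomputable def cum (blk : G → ℕ) (Z : Set G) (n : ℕ) : ℕ := (Z ∩ {g | blk g ≤ n}).ncard

/-- density zero -/
def Null (blk : G → ℕ) (N : ℕ → ℕ) (Z : Set G) : Prop :=
  ∀ k : ℕ, ∀ᶠ m in atTop, k * cnt blk Z m ≤ N m

open Classical in
/-- the tail term -/
noncomputable def tl (blk : G → ℕ) (N : ℕ → ℕ) (n : ℕ) (Z : Set G) : ℕ :=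
  Nat.findGreatest (fun j => ∃ m, n < m ∧ j * N m ≤ N (n + 1) * cnt blk Z m) (2 * N (n + 1))

/-- the walk of `Y` relative to `a` -/
noncomputable def wk (blk : G → ℕ) (N : ℕ → ℕ) (a Y : Set G) (n : ℕ) : ℤ :=
  (cum blk a n : ℤ) - cum blk Y n + tl blk N n (a \ Y) - tl blk N n (Y \ a)

/-- locally independent -/
def Ind (blk : G → ℕ) (N : ℕ → ℕ) (a Y : Set G) : Prop := ∀ᶠ n in atTop, 0 ≤ wk blk N a Y n

/-- locally spanning -/
def Spn (blk : G → ℕ) (N : ℕ → ℕ) (a Y : Set G) : Prop := ∃ᶠ n in atTop, wk blk N a Y n ≤ 0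

/-- local bases -/
def LB (blk : G → ℕ) (N : ℕ → ℕ) (a B : Set G) : Prop :=
  Null blk N (a \ B) ∧ Null blk N (B \ a) ∧ Ind blk N a B ∧ Spn blk N a B

variable {blk : G → ℕ} {N : ℕ → ℕ}

lemma Blocks.fin_le (h : Blocks blk N) (n : ℕ) : {g | blk g ≤ n}.Finite := by
  have : {g | blk g ≤ n} = ⋃ m ∈ Iic n, {g | blk g = m} := by
    ext g; simp
  rw [this]
  exact (finite_Iic n).biUnion fun m _ => h.fin m

lemma Blocks.cnt_mono (h : Blocks blk N) {Z Z' : Set G} {m : ℕ}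
    (hZ : ∀ g, blk g = m → g ∈ Z → g ∈ Z') : cnt blk Z m ≤ cnt blk Z' m :=
  ncard_le_ncard (fun g hg => ⟨hZ g hg.2 hg.1, hg.2⟩) ((h.fin m).inter_of_right _)

lemma Blocks.cum_mono (h : Blocks blk N) {Z Z' : Set G} {n : ℕ}
    (hZ : ∀ g, blk g ≤ n → g ∈ Z → g ∈ Z') : cum blk Z n ≤ cum blk Z' n :=
  ncard_le_ncard (fun g hg => ⟨hZ g hg.2 hg.1, hg.2⟩) ((h.fin_le n).inter_of_right _)

lemma Blocks.cnt_le (h : Blocks blk N) (Z : Set G) (m : ℕ) : cnt blk Z m ≤ 2 * N m :=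
  (ncard_le_ncard inter_subset_right (h.fin m)).trans (h.bd m)

lemma Blocks.cum_le (h : Blocks blk N) (Z : Set G) (n : ℕ) :
    cum blk Z n ≤ {g | blk g ≤ n}.ncard :=
  ncard_le_ncard inter_subset_right (h.fin_le n)

lemma cnt_union_le (Z Z' : Set G) (m : ℕ) : cnt blk (Z ∪ Z') m ≤ cnt blk Z m + cnt blk Z' m := by
  unfold cnt
  rw [union_inter_distrib_right]
  exact ncard_union_le _ _

lemma cnt_insert_le (Z : Set G) (e : G) (m : ℕ) : cnt blk (insert e Z) m ≤ cnt blk Z m + 1 := by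
  rw [insert_eq, union_comm]
  refine (cnt_union_le _ _ _).trans (Nat.add_le_add_left ?_ _)
  unfold cnt
  exact (ncard_le_ncard inter_subset_left (finite_singleton e)).trans (by simp)

lemma Blocks.cum_insert (h : Blocks blk N) {Z : Set G} {e : G} {n : ℕ} (he : e ∉ Z)
    (hn : blk e ≤ n) : cum blk (insert e Z) n = cum blk Z n + 1 := by
  unfold cum
  rw [insert_inter_of_mem (show e ∈ {g | blk g ≤ n} from hn),
    ncard_insert_of_notMem (fun hh => he hh.1) ((h.fin_le n).inter_of_right _)]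

lemma Blocks.null_mono (h : Blocks blk N) {Z Z' : Set G} (hZ : Z ⊆ Z') (h' : Null blk N Z') :
    Null blk N Z := fun k => (h' k).mono fun _ hm =>
  (Nat.mul_le_mul_left k (h.cnt_mono fun _ _ hg => hZ hg)).trans hm

lemma Null.union {Z Z' : Set G} (h : Null blk N Z) (h' : Null blk N Z') :
    Null blk N (Z ∪ Z') := by
  intro k
  filter_upwards [h (2 * k), h' (2 * k)] with m h1 h2
  have := Nat.mul_le_mul_left k (cnt_union_le (blk := blk) Z Z' m)
  nlinarith

lemma Blocks.null_finite (h : Blocks blk N) {Z : Set G} (hZ : Z.Finite) : Null blk N Z := by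
  intro k
  obtain ⟨M, hM⟩ := (hZ.image blk).bddAbove
  filter_upwards [eventually_gt_atTop M] with m hm
  have : Z ∩ {g | blk g = m} = ∅ := by
    ext g
    simp only [mem_inter_iff, mem_ofPred_eq, mem_empty_iff_false, iff_false, not_and]
    intro hg hb
    have := hM ⟨g, hg, rfl⟩
    omega
  simp [cnt, this]

lemma Blocks.big (h : Blocks blk N) (k : ℕ) : ∀ᶠ m in atTop, k ≤ N m := by
  obtain ⟨n, hn⟩ := (h.grow k).exists
  filter_upwards [eventually_ge_atTop (n + 1)] with m hm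
  exact (le_trans (by nlinarith) hn).trans (h.mono hm)

lemma Blocks.le_tl (h : Blocks blk N) {n j : ℕ} {Z : Set G} :
    j ≤ tl blk N n Z ↔ ∃ m, n < m ∧ j * N m ≤ N (n + 1) * cnt blk Z m := by
  classical
  constructor
  · intro hj
    have : ∃ m, n < m ∧ tl blk N n Z * N m ≤ N (n + 1) * cnt blk Z m := by
      unfold tl
      convert Nat.findGreatest_spec (P := fun j => ∃ m, n < m ∧ j * N m ≤ N (n + 1) * cnt blk Z m)
        (m := 0) (Nat.zero_le _) ⟨n + 1, Nat.lt_succ_self n, by simp⟩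
    obtain ⟨m, h1, h2⟩ := this
    exact ⟨m, h1, (Nat.mul_le_mul_right _ hj).trans h2⟩
  · rintro ⟨m, h1, h2⟩
    unfold tl
    have hj : j ≤ 2 * N (n + 1) := by
      have h3 := Nat.mul_le_mul_left (N (n + 1)) (h.cnt_le Z m)
      have h4 : j * N m ≤ (2 * N (n + 1)) * N m := by nlinarith
      exact Nat.le_of_mul_le_mul_right h4 (h.pos m)
    convert Nat.le_findGreatest (P := fun j => ∃ m, n < m ∧ j * N m ≤ N (n + 1) * cnt blk Z m)
      hj ⟨m, h1, h2⟩

lemma Blocks.tl_le (h : Blocks blk N) {n : ℕ} {Z Z' : Set G}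
    (hZ : ∀ m, n < m → cnt blk Z m ≤ cnt blk Z' m ∨ N (n + 1) * cnt blk Z m < N m) :
    tl blk N n Z ≤ tl blk N n Z' := by
  obtain ⟨m, h1, h2⟩ := h.le_tl.1 (le_refl (tl blk N n Z))
  rcases hZ m h1 with h3 | h3
  · exact h.le_tl.2 ⟨m, h1, h2.trans (Nat.mul_le_mul_left _ h3)⟩
  · have : tl blk N n Z = 0 := by
      by_contra h4
      have : 1 * N m ≤ tl blk N n Z * N m := Nat.mul_le_mul_right _ (Nat.pos_of_ne_zero h4)
      omega
    omega

lemma Blocks.tl_mono (h : Blocks blk N) {n : ℕ} {Z Z' : Set G}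
    (hZ : ∀ g, n < blk g → g ∈ Z → g ∈ Z') : tl blk N n Z ≤ tl blk N n Z' :=
  h.tl_le fun _ hm => Or.inl (h.cnt_mono fun g hg => hZ g (hg ▸ hm))

lemma Blocks.tl_step (h : Blocks blk N) {n : ℕ} {Z Z' : Set G} {e : G} (hZ : Z ⊆ insert e Z') :
    tl blk N n Z ≤ tl blk N n Z' + 1 := by
  obtain ⟨m, h1, h2⟩ := h.le_tl.1 (le_refl (tl blk N n Z))
  have h3 : cnt blk Z m ≤ cnt blk Z' m + 1 :=
    (h.cnt_mono fun _ _ hg => hZ hg).trans (cnt_insert_le _ _ _)
  have h4 : N (n + 1) ≤ N m := h.mono h1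
  have h5 : tl blk N n Z - 1 ≤ tl blk N n Z' := by
    refine h.le_tl.2 ⟨m, h1, ?_⟩
    rw [Nat.sub_mul]
    have := Nat.mul_le_mul_left (N (n + 1)) h3
    rw [Nat.mul_add] at this
    omega
  omega

lemma Blocks.wk_anti (h : Blocks blk N) (a : Set G) {Y Y' : Set G} (hY : Y ⊆ Y') (n : ℕ) :
    wk blk N a Y' n ≤ wk blk N a Y n := by
  have h1 : cum blk Y n ≤ cum blk Y' n := h.cum_mono fun _ _ hg => hY hg
  have h2 : tl blk N n (a \ Y') ≤ tl blk N n (a \ Y) :=
    h.tl_mono fun _ _ hg => ⟨hg.1, fun hh => hg.2 (hY hh)⟩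
  have h3 : tl blk N n (Y \ a) ≤ tl blk N n (Y' \ a) := h.tl_mono fun _ _ hg => ⟨hY hg.1, hg.2⟩
  unfold wk
  omega

lemma Blocks.wk_insert (h : Blocks blk N) (a : Set G) {Y : Set G} {e : G} {n : ℕ} (he : e ∉ Y)
    (hn : blk e ≤ n) : wk blk N a (insert e Y) n = wk blk N a Y n - 1 := by
  have h1 := h.cum_insert he hn
  have hne : ∀ g, n < blk g → g ≠ e := fun g hg hh => by subst hh; omega
  have h2 : tl blk N n (a \ insert e Y) = tl blk N n (a \ Y) :=
    le_antisymm (h.tl_mono fun _ _ hg => ⟨hg.1, fun hh => hg.2 (Or.inr hh)⟩)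
      (h.tl_mono fun g hb hg => ⟨hg.1, fun hh => hh.elim (hne g hb) hg.2⟩)
  have h3 : tl blk N n (insert e Y \ a) = tl blk N n (Y \ a) :=
    le_antisymm (h.tl_mono fun g hb hg => ⟨hg.1.resolve_left (hne g hb), hg.2⟩)
      (h.tl_mono fun _ _ hg => ⟨Or.inr hg.1, hg.2⟩)
  unfold wk
  omega

lemma Blocks.wk_step (h : Blocks blk N) (a Y : Set G) (e : G) (n : ℕ) :
    wk blk N a Y n - 1 ≤ wk blk N a (insert e Y) n := by
  by_cases he : e ∈ Y
  · rw [insert_eq_of_mem he]; omega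
  by_cases hn : blk e ≤ n
  · rw [h.wk_insert a he hn]
  have h1 : cum blk (insert e Y) n ≤ cum blk Y n :=
    h.cum_mono fun g hg hh => hh.resolve_left fun h2 => hn (h2 ▸ hg)
  by_cases ha : e ∈ a
  · have h2 : tl blk N n (a \ Y) ≤ tl blk N n (a \ insert e Y) + 1 :=
      h.tl_step (e := e) fun g hg => by
        by_cases h3 : g = e
        · exact Or.inl h3
        · exact Or.inr ⟨hg.1, fun hh => hh.elim h3 hg.2⟩
    have h3 : tl blk N n (insert e Y \ a) ≤ tl blk N n (Y \ a) :=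
      h.tl_mono fun g _ hg => ⟨hg.1.resolve_left fun h2 => hg.2 (h2 ▸ ha), hg.2⟩
    unfold wk
    omega
  · have h2 : tl blk N n (a \ Y) ≤ tl blk N n (a \ insert e Y) :=
      h.tl_mono fun g _ hg => ⟨hg.1, fun hh => hh.elim (fun h2 => ha (h2 ▸ hg.1)) hg.2⟩
    have h3 : tl blk N n (insert e Y \ a) ≤ tl blk N n (Y \ a) + 1 :=
      h.tl_step (e := e) fun g hg => hg.1.elim Or.inl fun h4 => Or.inr ⟨h4, hg.2⟩
    unfold wk
    omega

lemma Blocks.tl_small (h : Blocks blk N) {W : Set G} (hW : Null blk N W) (k : ℕ) :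
    ∀ᶠ n in atTop, k * tl blk N n W ≤ N (n + 1) := by
  obtain ⟨M, hM⟩ := eventually_atTop.1 (hW k)
  filter_upwards [eventually_ge_atTop M] with n hn
  obtain ⟨m, h1, h2⟩ := h.le_tl.1 (le_refl (tl blk N n W))
  have h3 := hM m (by omega)
  have h4 : (k * tl blk N n W) * N m ≤ N (n + 1) * N m := by
    calc (k * tl blk N n W) * N m = k * (tl blk N n W * N m) := by ring
      _ ≤ k * (N (n + 1) * cnt blk W m) := Nat.mul_le_mul_left _ h2
      _ = N (n + 1) * (k * cnt blk W m) := by ring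
      _ ≤ _ := Nat.mul_le_mul_left _ h3
  exact Nat.le_of_mul_le_mul_right h4 (h.pos m)

lemma Blocks.small_sum (h : Blocks blk N) {W : Set G} (hW : Null blk N W) (k : ℕ) :
    ∀ᶠ n in atTop, k * (tl blk N n W + {g | blk g ≤ n}.ncard + 1) ≤ N (n + 1) := by
  filter_upwards [h.tl_small hW (2 * k), h.grow (2 * k)] with n h1 h2
  nlinarith

lemma not_null_iff {V : Set G} :
    ¬ Null blk N V ↔ ∃ k : ℕ, ∃ᶠ m in atTop, N m < k * cnt blk V m := by
  unfold Null
  simp only [not_forall, not_eventually, not_le]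

lemma Blocks.dom (h : Blocks blk N) {V W : Set G} (hV : ¬ Null blk N V) (hW : Null blk N W) :
    ∀ᶠ n in atTop, tl blk N n W + {g | blk g ≤ n}.ncard + 1 ≤ tl blk N n V := by
  obtain ⟨k, hk⟩ := not_null_iff.1 hV
  filter_upwards [h.small_sum hW k] with n hn
  obtain ⟨m, h1, h2⟩ := frequently_atTop.1 hk (n + 1)
  refine h.le_tl.2 ⟨m, h1, ?_⟩
  calc _ ≤ (tl blk N n W + {g | blk g ≤ n}.ncard + 1) * (k * cnt blk V m) :=
        Nat.mul_le_mul_left _ h2.le
    _ = (k * (tl blk N n W + {g | blk g ≤ n}.ncard + 1)) * cnt blk V m := by ring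
    _ ≤ _ := Nat.mul_le_mul_right _ hn

lemma Blocks.below (h : Blocks blk N) {a X : Set G} (h1 : Null blk N (X \ a))
    (h2 : ¬ Null blk N (a \ X)) : ∀ᶠ n in atTop, 1 ≤ wk blk N a X n := by
  filter_upwards [h.dom h2 h1] with n hn
  have := h.cum_le X n
  unfold wk
  omega

lemma Blocks.above (h : Blocks blk N) {a Y : Set G} (h1 : Null blk N (a \ Y))
    (h2 : ¬ Null blk N (Y \ a)) : ∀ᶠ n in atTop, wk blk N a Y n ≤ -1 := by
  filter_upwards [h.dom h2 h1] with n hn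
  have := h.cum_le a n
  unfold wk
  omega

lemma spn_of_not_ind {a Y : Set G} (h : ¬ Ind blk N a Y) : Spn blk N a Y :=
  (not_eventually.1 h).mono fun _ hn => by omega

lemma ind_of_not_spn {a Y : Set G} (h : ¬ Spn blk N a Y) : Ind blk N a Y :=
  (not_frequently.1 h).mono fun _ hn => by omega

lemma Blocks.finite_ivp (h : Blocks blk N) (a B : Set G) (hB : Ind blk N a B) {D : Set G}
    (hD : D.Finite) : Spn blk N a (B ∪ D) →
      ∃ B', B ⊆ B' ∧ B' ⊆ B ∪ D ∧ Ind blk N a B' ∧ Spn blk N a B' := by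
  induction D, hD using Set.Finite.induction_on with
  | empty => exact fun hs => ⟨B, Subset.rfl, subset_union_left, hB, by simpa using hs⟩
  | @insert e D _ _ ih =>
    intro hs
    by_cases hi : Ind blk N a (B ∪ insert e D)
    · exact ⟨_, subset_union_left, Subset.rfl, hi, hs⟩
    · obtain ⟨B', h1, h2, h3⟩ := ih ((not_eventually.1 hi).mono fun n hn => by
        have := h.wk_step a (B ∪ D) e n
        rw [union_insert] at hn
        omega)
      exact ⟨B', h1, h2.trans (union_subset_union_right _ (subset_insert _ _)), h3⟩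

lemma Blocks.far (h : Blocks blk N) {W : Set G} (hW : Null blk N W) (c : ℕ) :
    ∀ᶠ m in atTop, c * (cnt blk W m + 1) < N m := by
  filter_upwards [hW (3 * c), h.big (3 * c), h.big 1] with m h1 h2 h3
  nlinarith

lemma chain_agree {c : Set (Set G)} (hc : IsChain (· ⊆ ·) c) (hne : c.Nonempty) {D : Set G}
    (hD : D.Finite) : ∃ Z ∈ c, ∀ g ∈ D, g ∈ ⋃₀ c → g ∈ Z := by
  induction D, hD using Set.Finite.induction_on with
  | empty => obtain ⟨Z, hZ⟩ := hne; exact ⟨Z, hZ, by simp⟩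
  | @insert e D _ _ ih =>
    obtain ⟨Z, hZ, h1⟩ := ih
    by_cases he : e ∈ ⋃₀ c
    · obtain ⟨Z', hZ', he⟩ := he
      rcases hc.total hZ hZ' with k | k
      · refine ⟨Z', hZ', ?_⟩
        rintro g (rfl | hg) h2
        · exact he
        · exact k (h1 g hg h2)
      · refine ⟨Z, hZ, ?_⟩
        rintro g (rfl | hg) h2
        · exact k he
        · exact h1 g hg h2
    · refine ⟨Z, hZ, ?_⟩
      rintro g (rfl | hg) h2
      · exact (he h2).elim
      · exact h1 g hg h2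

lemma Blocks.zorn_ivp (h : Blocks blk N) {a X Y : Set G} (hXY : X ⊆ Y) (hX : Null blk N (a \ X))
    (hI : Ind blk N a X) (hS : Spn blk N a Y) : ∃ B, X ⊆ B ∧ B ⊆ Y ∧ LB blk N a B := by
  obtain ⟨n₀, hn₀⟩ := eventually_atTop.1 hI
  have hLB : ∀ B, X ⊆ B → Ind blk N a B → Spn blk N a B → LB blk N a B := by
    intro B h1 h2 h3
    have h4 : Null blk N (a \ B) := h.null_mono (sdiff_subset_sdiff_right h1) hX
    refine ⟨h4, ?_, h2, h3⟩
    by_contra h5
    obtain ⟨n, k1, k2⟩ := ((h.above h4 h5).and h2).exists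
    omega
  obtain ⟨B, hXB, hB⟩ := zorn_subset_nonempty
    {Z | X ⊆ Z ∧ Z ⊆ Y ∧ ∀ n, n₀ ≤ n → 0 ≤ wk blk N a Z n} (by
      intro c hcS hc hne
      refine ⟨⋃₀ c, ⟨?_, sUnion_subset fun Z hZ => (hcS hZ).2.1, fun n hn => ?_⟩,
        fun Z hZ => subset_sUnion_of_mem hZ⟩
      · obtain ⟨Z, hZ⟩ := hne
        exact (hcS hZ).1.trans (subset_sUnion_of_mem hZ)
      obtain ⟨m₁, hm₁, hm₁'⟩ := h.le_tl.1 (le_refl (tl blk N n (⋃₀ c \ a)))
      obtain ⟨M, hM⟩ := eventually_atTop.1 (h.far hX (N (n + 1)))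
      obtain ⟨Z, hZ, hag⟩ := chain_agree hc hne (h.fin_le (m₁ + M))
      have h0 := (hcS hZ).2.2 n hn
      have h1 : cum blk (⋃₀ c) n ≤ cum blk Z n :=
        h.cum_mono fun g hg hh => hag g (show blk g ≤ m₁ + M by omega) hh
      have h2 : tl blk N n (⋃₀ c \ a) ≤ tl blk N n (Z \ a) := by
        refine h.le_tl.2 ⟨m₁, hm₁, hm₁'.trans (Nat.mul_le_mul_left _ (h.cnt_mono ?_))⟩
        exact fun g hg hh => ⟨hag g (show blk g ≤ m₁ + M by omega) hh.1, hh.2⟩
      have h3 : tl blk N n (a \ Z) ≤ tl blk N n (a \ ⋃₀ c) := by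
        refine h.tl_le fun m _ => ?_
        by_cases hm : m ≤ m₁ + M
        · exact Or.inl (h.cnt_mono fun g hg hh =>
            ⟨hh.1, fun k => hh.2 (hag g (show blk g ≤ m₁ + M by omega) k)⟩)
        · right
          have k1 := hM m (by omega)
          have k2 : cnt blk (a \ Z) m ≤ cnt blk (a \ X) m :=
            h.cnt_mono fun g _ hh => ⟨hh.1, fun k => hh.2 ((hcS hZ).1 k)⟩
          exact lt_of_le_of_lt (Nat.mul_le_mul_left _ (by omega)) k1
      unfold wk at h0 ⊢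
      omega) X ⟨Subset.rfl, hXY, hn₀⟩
  have hBI : Ind blk N a B := eventually_atTop.2 ⟨n₀, hB.prop.2.2⟩
  by_cases hBS : Spn blk N a B
  · exact ⟨B, hXB, hB.prop.2.1, hLB B hXB hBI hBS⟩
  have hV : Null blk N (a \ B) := h.null_mono (sdiff_subset_sdiff_right hXB) hX
  have hW : Null blk N (B \ a) := by
    by_contra h5
    obtain ⟨n, k1, k2⟩ := ((h.above hV h5).and hBI).exists
    omega
  obtain ⟨n₁, hn₁⟩ := eventually_atTop.1 (not_frequently.1 hBS)
  obtain ⟨M, hM⟩ := eventually_atTop.1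
    ((h.far hV (N (n₁ + 1))).and (h.far hW (N (n₁ + 1))))
  have hfin : (Y \ B).Finite := by
    refine (h.fin_le (n₁ + M)).subset fun e he => ?_
    by_contra hb
    simp only [mem_ofPred_eq, not_le] at hb
    refine he.2 (hB.le_of_ge (y := insert e B) ⟨hXB.trans (subset_insert _ _),
      insert_subset he.1 hB.prop.2.1, fun n hn => ?_⟩ (subset_insert _ _) (mem_insert _ _))
    by_cases hn1 : n₁ ≤ n
    · have k1 := hn₁ n hn1
      have k2 := h.wk_step a B e n
      omega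
    have h0 := hB.prop.2.2 n hn
    have hN : N (n + 1) ≤ N (n₁ + 1) := h.mono (by omega)
    have h1 : cum blk (insert e B) n ≤ cum blk B n :=
      h.cum_mono fun g hg hh => hh.resolve_left fun h2 => by subst h2; omega
    have h2 : tl blk N n (insert e B \ a) ≤ tl blk N n (B \ a) := by
      refine h.tl_le fun m _ => ?_
      by_cases hm : m = blk e
      · right
        have k1 := (hM m (by omega)).2
        have k2 : cnt blk (insert e B \ a) m ≤ cnt blk (B \ a) m + 1 :=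
          (h.cnt_mono (Z' := insert e (B \ a)) fun g _ hg =>
            hg.1.elim Or.inl fun h4 => Or.inr ⟨h4, hg.2⟩).trans (cnt_insert_le _ _ _)
        exact lt_of_le_of_lt (Nat.mul_le_mul hN k2) k1
      · exact Or.inl (h.cnt_mono fun g hg hh =>
          ⟨hh.1.resolve_left fun h2 => hm (by rw [← hg, h2]), hh.2⟩)
    have h3 : tl blk N n (a \ B) ≤ tl blk N n (a \ insert e B) := by
      refine h.tl_le fun m _ => ?_
      by_cases hm : m = blk e
      · right
        have k1 := (hM m (by omega)).1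
        exact lt_of_le_of_lt (Nat.mul_le_mul hN (by omega)) k1
      · exact Or.inl (h.cnt_mono fun g hg hh =>
          ⟨hh.1, fun k => k.elim (fun h2 => hm (by rw [← hg, h2])) hh.2⟩)
    unfold wk at h0 ⊢
    omega
  obtain ⟨B', k1, k2, k3, k4⟩ := h.finite_ivp a B hBI hfin (by
    rw [union_sdiff_cancel hB.prop.2.1]; exact hS)
  rw [union_sdiff_cancel hB.prop.2.1] at k2
  exact ⟨B', hXB.trans k1, k2, hLB B' (hXB.trans k1) k3 k4⟩

lemma Blocks.slow (h : Blocks blk N) {V : Set G} (hV : ¬ Null blk N V) (f : ℕ → ℕ)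
    (hf : ∀ k, ∀ᶠ n in atTop, k * f n ≤ N (n + 1)) :
    ∃ V', V' ⊆ V ∧ Null blk N V' ∧ ∀ᶠ n in atTop, f n ≤ tl blk N n V' := by
  classical
  obtain ⟨k₀, hk₀⟩ := not_null_iff.1 hV
  let good : ℕ → Prop := fun m => N m < k₀ * cnt blk V m
  let P : ℕ → ℕ → Prop := fun m k =>
    ∀ n, n < m → (∀ g, n < g → g < m → ¬ good g) → k * f n ≤ N (n + 1)
  let K : ℕ → ℕ := fun m => Nat.findGreatest (P m) m
  have hK1 : ∀ m, P m (K m) := fun m =>
    Nat.findGreatest_spec (P := P m) (m := 0) (Nat.zero_le _) fun n _ _ => by simp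
  have hK2 : ∀ k, ∀ᶠ m in atTop, k ≤ K m := by
    intro k
    obtain ⟨n₀, hn₀⟩ := eventually_atTop.1 (hf k)
    obtain ⟨g, hg1, hg2⟩ := frequently_atTop.1 hk₀ n₀
    filter_upwards [eventually_gt_atTop g, eventually_ge_atTop k] with m hm hk
    refine Nat.le_findGreatest hk fun n _ hn => hn₀ n ?_
    by_contra hlt
    exact hn g (by omega) hm hg2
  have hsub : ∀ m, ∃ t, t ⊆ V ∩ {g | blk g = m} ∧ t.ncard = min (cnt blk V m) (N m / K m + 1) :=
    fun m => Set.exists_subset_card_eq (min_le_left _ _)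
  choose t ht1 ht2 using hsub
  have hcnt : ∀ m, cnt blk (⋃ m, t m) m = min (cnt blk V m) (N m / K m + 1) := by
    intro m
    rw [← ht2]
    unfold cnt
    congr 1
    ext g
    simp only [mem_inter_iff, mem_iUnion, mem_ofPred_eq]
    constructor
    · rintro ⟨⟨i, hi⟩, hg⟩
      have : blk g = i := (ht1 i hi).2
      rw [← hg, this]; exact hi
    · exact fun hg => ⟨⟨m, hg⟩, (ht1 m hg).2⟩
  refine ⟨⋃ m, t m, iUnion_subset fun m => (ht1 m).trans inter_subset_left, fun k => ?_, ?_⟩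
  · filter_upwards [hK2 (2 * k), h.big (2 * k)] with m h1 h2
    rw [hcnt]
    have h3 : N m / K m * K m ≤ N m := Nat.div_mul_le_self _ _
    have h4 : N m / K m * (2 * k) ≤ N m / K m * K m := Nat.mul_le_mul_left _ h1
    have h5 := Nat.mul_le_mul_left k (min_le_right (cnt blk V m) (N m / K m + 1))
    nlinarith
  · obtain ⟨M, hM⟩ := eventually_atTop.1 ((hK2 k₀).and (hK2 1))
    filter_upwards [eventually_ge_atTop M] with n hn
    have hex : ∃ m, n < m ∧ good m := frequently_atTop.1 hk₀ (n + 1)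
    obtain ⟨hm1, hm2⟩ := Nat.find_spec hex
    set m := Nat.find hex with hm
    have h1 := hK1 m n hm1 fun g h1 h2 h3 => Nat.find_min hex h2 ⟨h1, h3⟩
    obtain ⟨h2, h3⟩ := hM m (by omega)
    refine h.le_tl.2 ⟨m, hm1, ?_⟩
    rw [hcnt]
    have h4 : N m ≤ K m * min (cnt blk V m) (N m / K m + 1) := by
      rcases min_choice (cnt blk V m) (N m / K m + 1) with e | e <;> rw [e]
      · exact hm2.le.trans (Nat.mul_le_mul_right _ h2)
      · exact (Nat.lt_mul_div_succ _ h3).le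
    calc f n * N m ≤ f n * (K m * min (cnt blk V m) (N m / K m + 1)) := Nat.mul_le_mul_left _ h4
      _ = (K m * f n) * min (cnt blk V m) (N m / K m + 1) := by ring
      _ ≤ _ := Nat.mul_le_mul_right _ h1

lemma Blocks.local_ivp (h : Blocks blk N) {a X Y : Set G} (hXY : X ⊆ Y) (hX : Null blk N (X \ a))
    (hY : Null blk N (a \ Y)) (hI : Ind blk N a X) (hS : Spn blk N a Y) :
    ∃ B, X ⊆ B ∧ B ⊆ Y ∧ LB blk N a B := by
  have hX' : X ∪ a ∩ Y ⊆ Y := union_subset hXY inter_subset_right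
  have hn : Null blk N (a \ (X ∪ a ∩ Y)) :=
    h.null_mono (Z' := a \ Y) (fun g hg => ⟨hg.1, fun hh => hg.2 (Or.inr ⟨hg.1, hh⟩)⟩) hY
  by_cases hi : Ind blk N a (X ∪ a ∩ Y)
  · obtain ⟨B, h1, h2, h3⟩ := h.zorn_ivp hX' hn hi hS
    exact ⟨B, subset_union_left.trans h1, h2, h3⟩
  by_cases hx : Null blk N (a \ X)
  · exact h.zorn_ivp hXY hx hI hS
  have hV : ¬ Null blk N ((a ∩ Y) \ X) := by
    intro hh
    refine hx (h.null_mono (fun g hg => ?_) (hh.union hY))
    by_cases hg' : g ∈ Y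
    · exact Or.inl ⟨⟨hg.1, hg'⟩, hg.2⟩
    · exact Or.inr ⟨hg.1, hg'⟩
  obtain ⟨V', h1, h2, h3⟩ := h.slow hV _ (h.small_sum hX)
  have hXX : X ⊆ (X ∪ a ∩ Y) \ V' := fun g hg => ⟨Or.inl hg, fun hh => (h1 hh).2 hg⟩
  obtain ⟨B, k1, k2, k3⟩ := h.zorn_ivp (a := a) (X := (X ∪ a ∩ Y) \ V') (Y := X ∪ a ∩ Y)
    sdiff_subset (h.null_mono (fun g hg => by
      by_cases hg' : g ∈ V'
      · exact Or.inr hg'
      · exact Or.inl ⟨hg.1, fun hh => hg.2 ⟨hh, hg'⟩⟩) (hn.union h2)) (by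
      filter_upwards [h3] with n hn
      have e1 := h.cum_le ((X ∪ a ∩ Y) \ V') n
      have e2 : tl blk N n V' ≤ tl blk N n (a \ ((X ∪ a ∩ Y) \ V')) :=
        h.tl_mono fun g _ hg => ⟨(h1 hg).1.1, fun hh => hh.2 hg⟩
      have e3 : tl blk N n (((X ∪ a ∩ Y) \ V') \ a) ≤ tl blk N n (X \ a) :=
        h.tl_mono fun g _ hg => ⟨hg.1.1.resolve_right fun hh => hg.2 hh.1, hg.2⟩
      unfold wk
      omega) (spn_of_not_ind hi)
  exact ⟨B, hXX.trans k1, k2.trans hX', k3⟩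

lemma Blocks.ind_empty (h : Blocks blk N) (a : Set G) : Ind blk N a ∅ := by
  refine Eventually.of_forall fun n => ?_
  have h1 : cum blk ∅ n ≤ cum blk a n := h.cum_mono fun _ _ hg => hg.elim
  have h2 : tl blk N n (∅ \ a) ≤ tl blk N n (a \ ∅) := h.tl_mono fun _ _ hg => hg.1.elim
  unfold wk
  omega

lemma Blocks.spn_univ (h : Blocks blk N) (a : Set G) : Spn blk N a univ := by
  refine Frequently.of_forall fun n => ?_
  have h1 : cum blk a n ≤ cum blk univ n := h.cum_mono fun _ _ _ => trivial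
  have h2 : tl blk N n (a \ univ) ≤ tl blk N n (univ \ a) :=
    h.tl_mono fun _ _ hg => (hg.2 trivial).elim
  unfold wk
  omega

lemma Blocks.local_cut (h : Blocks blk N) {a X Y : Set G} (hXY : X ⊆ Y)
    (hc : Null blk N (a \ X) ∨ (Null blk N (X \ a) ∧ Null blk N (a \ Y)) ∨ Null blk N (Y \ a)) :
    ∃ B, LB blk N a B ∧ (B ⊆ X ∨ (X ⊆ B ∧ B ⊆ Y) ∨ Y ⊆ B) := by
  have h0 : Null blk N (∅ : Set G) := h.null_finite finite_empty
  have lo : Null blk N (a \ X) → Spn blk N a X →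
      ∃ B, LB blk N a B ∧ (B ⊆ X ∨ (X ⊆ B ∧ B ⊆ Y) ∨ Y ⊆ B) := by
    intro h1 h2
    obtain ⟨B, -, k2, k3⟩ := h.local_ivp (empty_subset X) (by simpa using h0) h1
      (h.ind_empty a) h2
    exact ⟨B, k3, Or.inl k2⟩
  have hi : Null blk N (Y \ a) → Ind blk N a Y →
      ∃ B, LB blk N a B ∧ (B ⊆ X ∨ (X ⊆ B ∧ B ⊆ Y) ∨ Y ⊆ B) := by
    intro h1 h2
    obtain ⟨B, k1, -, k3⟩ := h.local_ivp (subset_univ Y) h1 (by simpa using h0) h2
      (h.spn_univ a)
    exact ⟨B, k3, Or.inr (Or.inr k1)⟩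
  have mid : Null blk N (X \ a) → Null blk N (a \ Y) →
      ∃ B, LB blk N a B ∧ (B ⊆ X ∨ (X ⊆ B ∧ B ⊆ Y) ∨ Y ⊆ B) := by
    intro h1 h2
    by_cases hI : Ind blk N a X
    · by_cases hS : Spn blk N a Y
      · obtain ⟨B, k1, k2, k3⟩ := h.local_ivp hXY h1 h2 hI hS
        exact ⟨B, k3, Or.inr (Or.inl ⟨k1, k2⟩)⟩
      · refine hi ?_ (ind_of_not_spn hS)
        by_contra h3
        exact hS ((h.above h2 h3).frequently.mono fun _ hn => by omega)
    · refine lo ?_ (spn_of_not_ind hI)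
      by_contra h3
      exact hI ((h.below h1 h3).mono fun _ hn => by omega)
  rcases hc with hc | hc | hc
  · by_cases h1 : Null blk N (X \ a)
    · exact mid h1 (h.null_mono (sdiff_subset_sdiff_right hXY) hc)
    · exact lo hc ((h.above hc h1).frequently.mono fun _ hn => by omega)
  · exact mid hc.1 hc.2
  · by_cases h1 : Null blk N (a \ Y)
    · exact mid (h.null_mono (sdiff_subset_sdiff_left hXY) hc) h1
    · exact hi hc ((h.below hc h1).mono fun _ hn => by omega)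

lemma Blocks.lb_anti (h : Blocks blk N) {a B B' : Set G} (hB : LB blk N a B) (hB' : LB blk N a B')
    (hs : B ⊆ B') : B = B' := by
  refine Subset.antisymm hs fun e he => ?_
  by_contra hn
  obtain ⟨n, k1, k2, k3⟩ := (hB.2.2.2.and_eventually
    (hB'.2.2.1.and (eventually_ge_atTop (blk e)))).exists
  have e1 := h.wk_insert a hn k3
  have e2 := h.wk_anti a (insert_subset he hs) n
  omega

lemma Blocks.lb_exch (h : Blocks blk N) {a B : Set G} {e f : G} (hB : LB blk N a B) (he : e ∈ B)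
    (hf : f ∉ B) : LB blk N a (insert f (B \ {e})) := by
  have hw : ∀ᶠ n in atTop, wk blk N a (insert f (B \ {e})) n = wk blk N a B n := by
    filter_upwards [eventually_ge_atTop (blk e), eventually_ge_atTop (blk f)] with n h1 h2
    have e1 := h.wk_insert a (Y := B \ {e}) (e := f) (fun hh => hf hh.1) h2
    have e2 := h.wk_insert a (Y := B \ {e}) (e := e) (fun hh => hh.2 rfl) h1
    rw [insert_sdiff_singleton, insert_eq_of_mem he] at e2
    omega
  refine ⟨h.null_mono (fun g hg => ?_) (hB.1.union (h.null_finite (finite_singleton e))),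
    h.null_mono (fun g hg => ?_) (hB.2.1.union (h.null_finite (finite_singleton f))), ?_, ?_⟩
  · by_cases hge : g = e
    · exact Or.inr hge
    · exact Or.inl ⟨hg.1, fun hh => hg.2 (Or.inr ⟨hh, hge⟩)⟩
  · rcases hg.1 with k | k
    · exact Or.inr k
    · exact Or.inl ⟨k.1, hg.2⟩
  · filter_upwards [hB.2.2.1, hw] with n h1 h2
    omega
  · exact (hB.2.2.2.and_eventually hw).mono fun n hn => by omega

/-- Gluing the local rules along a macroscopic cutset. -/
theorem Blocks.usys (h : Blocks blk N) (𝒜 : Set (Set G))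
    (h1 : ∀ a ∈ 𝒜, ∀ a' ∈ 𝒜, Null blk N (a \ a') → a = a')
    (h2 : ∀ a ∈ 𝒜, ∀ a' ∈ 𝒜, ¬ Null blk N (a \ a'ᶜ))
    (h3 : ∀ a ∈ 𝒜, ∀ a' ∈ 𝒜, ¬ Null blk N (aᶜ \ a'))
    (h4 : ∀ X Y, X ⊆ Y → ∃ a, (a ∈ 𝒜 ∨ aᶜ ∈ 𝒜) ∧
      (Null blk N (a \ X) ∨ (Null blk N (X \ a) ∧ Null blk N (a \ Y)) ∨ Null blk N (Y \ a))) :
    USys fun B => ∃ a ∈ 𝒜, LB blk N a B ∨ LB blk N a Bᶜ := by
  have tr : ∀ {a a' B B' : Set G}, Null blk N (a \ B) → B ⊆ B' → Null blk N (B' \ a') →
      Null blk N (a \ a') := by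
    intro a a' B B' k1 k2 k3
    refine h.null_mono (fun g hg => ?_) (k1.union k3)
    by_cases hb : g ∈ B
    · exact Or.inr ⟨k2 hb, hg.2⟩
    · exact Or.inl ⟨hg.1, hb⟩
  have cc : ∀ a b : Set G, aᶜ \ bᶜ = b \ a := fun a b => by ext; simp [and_comm]
  have cc1 : ∀ a b : Set G, a \ bᶜ = b \ aᶜ := fun a b => by ext; simp [and_comm]
  have cc2 : ∀ a b : Set G, aᶜ \ b = bᶜ \ a := fun a b => by ext; simp [and_comm]
  constructor
  · rintro B B' ⟨a, ha, hB | hB⟩ ⟨a', ha', hB' | hB'⟩ hs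
    · obtain rfl := h1 a ha a' ha' (tr hB.1 hs hB'.2.1)
      exact h.lb_anti hB hB' hs
    · exact (h2 a ha a' ha' (tr hB.1 hs (by rw [cc1]; exact hB'.1))).elim
    · exact (h3 a ha a' ha' (tr (by rw [cc2]; exact hB.2.1) hs hB'.2.1)).elim
    · have hs' := compl_subset_compl.2 hs
      obtain rfl := h1 a' ha' a ha (tr hB'.1 hs' hB.2.1)
      exact (compl_injective (h.lb_anti hB' hB hs')).symm
  · rintro B e f ⟨a, ha, hB | hB⟩ he hf
    · exact ⟨a, ha, Or.inl (h.lb_exch hB he hf)⟩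
    · refine ⟨a, ha, Or.inr ?_⟩
      have : (insert f (B \ {e}))ᶜ = insert e (Bᶜ \ {f}) := by
        ext g
        simp only [mem_compl_iff, mem_insert_iff, Set.mem_sdiff, mem_singleton_iff]
        constructor
        · intro k
          by_cases hg : g = e
          · exact Or.inl hg
          · exact Or.inr ⟨fun hh => k (Or.inr ⟨hh, hg⟩), fun hh => k (Or.inl hh)⟩
        · rintro (rfl | k) (k' | k')
          · exact hf (k' ▸ he)
          · exact k'.2 rfl
          · exact k.2 k'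
          · exact k.1 k'.1
      rw [this]
      exact h.lb_exch hB hf (fun hh => hh he)
  · rintro B ⟨a, ha, hB | hB⟩
    · exact ⟨a, ha, Or.inr (by simpa using hB)⟩
    · exact ⟨a, ha, Or.inl hB⟩
  · intro X Y hXY
    obtain ⟨a, ha | ha, hc⟩ := h4 X Y hXY
    · obtain ⟨B, k1, k2⟩ := h.local_cut hXY hc
      exact ⟨B, ⟨a, ha, Or.inl k1⟩, k2⟩
    · obtain ⟨B, k1, k2⟩ := h.local_cut (a := aᶜ) (compl_subset_compl.2 hXY) (by
        simp only [cc]
        tauto)
      refine ⟨Bᶜ, ⟨aᶜ, ha, Or.inr (by simpa using k1)⟩, ?_⟩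
      rcases k2 with k | k | k
      · exact Or.inr (Or.inr (subset_compl_comm.1 k))
      · exact Or.inr (Or.inl ⟨subset_compl_comm.1 k.2, compl_subset_comm.1 k.1⟩)
      · exact Or.inl (compl_subset_comm.1 k)

end Crest.Agent.IM
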