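import Crest.Agent.IM.Build

/-! The macroscopic construction: a complement-closed cutset in the square of a reduced power
of `P(E)`, labelled so that no two-way infinite chain of linked elements exists. -/

set_option autoImplicit false

namespace Crest.Agent.IM

open Set Cardinal Filter

variable {E : Type}

/-- inclusion modulo the filter -/
def Le (F : Filter E) (a b : Set E) : Prop := ∀ᶠ e in F, e ∈ a → e ∈ b

namespace Le
variable {F : Filter E} {a b c : Set E}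
lemma rfl : Le F a a := Eventually.of_forall fun _ h => h
lemma of_subset (h : a ⊆ b) : Le F a b := Eventually.of_forall fun _ h' => h h'
lemma trans (h : Le F a b) (h' : Le F b c) : Le F a c := by
  filter_upwards [h, h'] with e h h' he using h' (h he)
lemma compl (h : Le F a b) : Le F bᶜ aᶜ := by
  filter_upwards [h] with e h hb ha using hb (h ha)
lemma of_compl (h : Le F aᶜ bᶜ) : Le F b a := by
  simpa using h.compl
lemma compl_left (h : Le F aᶜ b) : Le F bᶜ a := by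
  simpa using h.compl
lemma compl_right (h : Le F a bᶜ) : Le F b aᶜ := by
  simpa using h.compl
end Le

/-- splitting of small families of positive sets -/
def Split (F : Filter E) : Prop :=
  ∀ S : Set (Set E), #S < continuum → ∃ R : Set E, ∀ Z ∈ S, (∃ᶠ e in F, e ∈ Z) →
    (∃ᶠ e in F, e ∈ Z ∧ e ∈ R) ∧ (∃ᶠ e in F, e ∈ Z ∧ e ∉ R)

lemma not_le_iff {F : Filter E} {a b : Set E} : ¬ Le F a b ↔ ∃ᶠ e in F, e ∈ a ∧ e ∉ b := by
  unfold Le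
  rw [Filter.not_eventually]
  simp only [Classical.not_imp]

lemma generic {F : Filter E} (hF : Split F) (S : Set (Set E)) (hS : #S < continuum)
    {x y : Set E} (hxy : Le F x y) :
    ∃ z, Le F x z ∧ Le F z y ∧ ∀ a ∈ S, (¬ Le F a x → ¬ Le F a z) ∧ (¬ Le F y a → ¬ Le F z a) := by
  obtain ⟨R, hR⟩ := hF ((fun a => a \ x) '' S ∪ (fun a => y \ a) '' S) (by
    refine lt_of_le_of_lt (mk_union_le _ _) ?_
    exact add_lt_of_lt aleph0_le_continuum (lt_of_le_of_lt mk_image_le hS)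
      (lt_of_le_of_lt mk_image_le hS))
  refine ⟨x ∪ (R ∩ y), Le.of_subset subset_union_left, ?_, fun a ha => ⟨fun h => ?_, fun h => ?_⟩⟩
  · filter_upwards [hxy] with e h he
    rcases he with he | he
    · exact h he
    · exact he.2
  · rw [not_le_iff] at h ⊢
    refine (hR _ (Or.inl ⟨a, ha, rfl⟩) h).2.mono ?_
    rintro e ⟨⟨h1, h2⟩, h3⟩
    exact ⟨h1, fun h => h.elim h2 fun h => h3 h.1⟩
  · rw [not_le_iff] at h ⊢
    refine (hR _ (Or.inr ⟨a, ha, rfl⟩) h).1.mono ?_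
    rintro e ⟨⟨h1, h2⟩, h3⟩
    exact ⟨Or.inr ⟨h3, h1⟩, h2⟩

/-- atoms of the construction: labelled generators and labelled pairs -/
abbrev Atom (E Λ : Type) : Type := (Set E × Λ) ⊕ (Set E × Set E × Λ)

variable {Λ : Type} [LinearOrder Λ]

/-- label of an atom -/
def lab : Atom E Λ → Λ := Sum.elim (fun a => a.2) (fun a => a.2.2)

/-- the invariant -/
structure Inv (F : Filter E) (s : Set (Atom E Λ)) : Prop where
  link : ∀ g l g' l', Sum.inl (g, l) ∈ s → Sum.inl (g', l') ∈ s → ¬ Le F gᶜ g'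
  p1 : ∀ p q b, Sum.inr (p, q, b) ∈ s → ∃ g l, Sum.inl (g, l) ∈ s ∧ Le F p g
  p2 : ∀ p q b, Sum.inr (p, q, b) ∈ s → ∃ g l, Sum.inl (g, l) ∈ s ∧ l ≤ b ∧ Le F q g
  p3 : ∀ p q b, Sum.inr (p, q, b) ∈ s → ∀ g l, Sum.inl (g, l) ∈ s → l ≤ b → ¬ Le F p g
  anti : ∀ p q b p' q' b', Sum.inr (p, q, b) ∈ s → Sum.inr (p', q', b') ∈ s →
    Le F p p' → Le F q' q → p = p' ∧ q = q'

/-- lower sets -/
def Low (F : Filter E) (s : Set (Atom E Λ)) (a : Set E) : Prop :=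
  ∃ g l, Sum.inl (g, l) ∈ s ∧ Le F a g

/-- critical pairs -/
def Crit (s : Set (Atom E Λ)) (a₁ a₂ : Set E) : Prop :=
  ∃ p q b, Sum.inr (p, q, b) ∈ s ∧ ((a₁ = p ∧ a₂ = qᶜ) ∨ (a₁ = pᶜ ∧ a₂ = q))

/-- a task is satisfied -/
def Sat (F : Filter E) (s : Set (Atom E Λ)) (τ : Set E × Set E × Set E × Set E) : Prop :=
  Le F τ.1 τ.2.2.1 → Le F τ.2.1 τ.2.2.2 → ∃ a₁ a₂, Crit s a₁ a₂ ∧
    ((Le F a₁ τ.1 ∧ Le F a₂ τ.2.1) ∨
      (Le F τ.1 a₁ ∧ Le F τ.2.1 a₂ ∧ Le F a₁ τ.2.2.1 ∧ Le F a₂ τ.2.2.2) ∨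
      (Le F τ.2.2.1 a₁ ∧ Le F τ.2.2.2 a₂))

omit [LinearOrder Λ] in
lemma Low.mono {F : Filter E} {s s' : Set (Atom E Λ)} {a : Set E} (h : Low F s a) (hs : s ⊆ s') :
    Low F s' a := by
  obtain ⟨g, l, h1, h2⟩ := h
  exact ⟨g, l, hs h1, h2⟩

omit [LinearOrder Λ] in
lemma Low.of_le {F : Filter E} {s : Set (Atom E Λ)} {a b : Set E} (h : Low F s a)
    (hb : Le F b a) : Low F s b := by
  obtain ⟨g, l, h1, h2⟩ := h
  exact ⟨g, l, h1, hb.trans h2⟩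

lemma Inv.not_low {F : Filter E} {s : Set (Atom E Λ)} (h : Inv F s) {a b : Set E}
    (ha : Low F s a) (hb : Low F s b) : ¬ Le F aᶜ b := by
  obtain ⟨g, l, h1, h2⟩ := ha
  obtain ⟨g', l', h1', h2'⟩ := hb
  intro h3
  exact h.link g l g' l' h1 h1' ((h2.compl.trans h3).trans h2')

omit [LinearOrder Λ] in
lemma Crit.mono {s s' : Set (Atom E Λ)} {a b : Set E} (h : Crit s a b) (hs : s ⊆ s') :
    Crit s' a b := by
  obtain ⟨p, q, l, h1, h2⟩ := h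
  exact ⟨p, q, l, hs h1, h2⟩

omit [LinearOrder Λ] in
lemma Crit.compl {s : Set (Atom E Λ)} {a b : Set E} (h : Crit s a b) : Crit s aᶜ bᶜ := by
  obtain ⟨p, q, l, h1, h2⟩ := h
  refine ⟨p, q, l, h1, ?_⟩
  rcases h2 with ⟨rfl, rfl⟩ | ⟨rfl, rfl⟩
  · right; simp
  · left; simp

/-- the sets mentioned by a state, with complements -/
def known (s : Set (Atom E Λ)) : Set (Set E) :=
  (Sum.elim (fun a => a.1) (fun a => a.1) '' s ∪ Sum.elim (fun a => a.1) (fun a => a.2.1) '' s) ∪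
  (Sum.elim (fun a => a.1ᶜ) (fun a => a.1ᶜ) '' s ∪
    Sum.elim (fun a => a.1ᶜ) (fun a => a.2.1ᶜ) '' s)

omit [LinearOrder Λ] in
lemma known_small {s : Set (Atom E Λ)} (hs : #s < continuum) : #(known s) < continuum := by
  have h : ∀ f : Atom E Λ → Set E, #(f '' s) < continuum := fun f => lt_of_le_of_lt mk_image_le hs
  have h2 : ∀ A B : Set (Set E), #A < continuum → #B < continuum →
      #(A ∪ B : Set (Set E)) < continuum := fun A B hA hB =>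
    lt_of_le_of_lt (mk_union_le _ _) (add_lt_of_lt aleph0_le_continuum hA hB)
  exact h2 _ _ (h2 _ _ (h _) (h _)) (h2 _ _ (h _) (h _))

omit [LinearOrder Λ] in
lemma gen_known {s : Set (Atom E Λ)} {g : Set E} {l : Λ} (h : Sum.inl (g, l) ∈ s) :
    g ∈ known s ∧ gᶜ ∈ known s :=
  ⟨Or.inl (Or.inl ⟨_, h, rfl⟩), Or.inr (Or.inl ⟨_, h, rfl⟩)⟩

omit [LinearOrder Λ] in
lemma crit_known {s : Set (Atom E Λ)} {a b : Set E} (h : Crit s a b) :
    a ∈ known s ∧ b ∈ known s := by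
  obtain ⟨p, q, l, h1, h2⟩ := h
  rcases h2 with ⟨rfl, rfl⟩ | ⟨rfl, rfl⟩
  · exact ⟨Or.inl (Or.inl ⟨_, h1, rfl⟩), Or.inr (Or.inr ⟨_, h1, rfl⟩)⟩
  · exact ⟨Or.inr (Or.inl ⟨_, h1, rfl⟩), Or.inl (Or.inr ⟨_, h1, rfl⟩)⟩

lemma small_of_finite_diff {σ : Type} {s s' : Set σ} (hs : #s < continuum)
    (h : (s' \ s).Finite) : #s' < continuum := by
  have : s' ⊆ s ∪ (s' \ s) := fun a ha => by
    by_cases h : a ∈ s
    · exact Or.inl h
    · exact Or.inr ⟨ha, h⟩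
  refine lt_of_le_of_lt (mk_le_mk_of_subset this) (lt_of_le_of_lt (mk_union_le _ _) ?_)
  exact add_lt_of_lt aleph0_le_continuum hs (h.lt_aleph0.trans aleph0_lt_continuum)

lemma finite_diff_trans {σ : Type} {s s' s'' : Set σ} (h : (s' \ s).Finite)
    (h' : (s'' \ s').Finite) : (s'' \ s).Finite := by
  refine (h.union h').subset fun a ha => ?_
  by_cases h : a ∈ s'
  · exact Or.inl ⟨h, ha.2⟩
  · exact Or.inr ⟨ha.1, h⟩

lemma finite_insert_diff {σ : Type} (s : Set σ) (a : σ) : (insert a s \ s).Finite :=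
  (finite_singleton a).subset fun b hb => by
    rcases hb with ⟨h | h, h'⟩
    · exact h
    · exact (h' h).elim

lemma Inv.add_gen {F : Filter E} {s : Set (Atom E Λ)} (h : Inv F s) {b : Set E} {l : Λ}
    (h1 : ∀ g l', Sum.inl (g, l') ∈ s → ¬ Le F bᶜ g) (h2 : ¬ Le F bᶜ b)
    (h3 : ∀ p q β, Sum.inr (p, q, β) ∈ s → l ≤ β → ¬ Le F p b) :
    Inv F (insert (Sum.inl (b, l)) s) := by
  have hr : ∀ x : Set E × Set E × Λ, Sum.inr x ∈ insert (Sum.inl (b, l) : Atom E Λ) s →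
      Sum.inr x ∈ s := by
    intro x hx
    rcases hx with hx | hx
    · cases hx
    · exact hx
  have hl : ∀ g l', Sum.inl (g, l') ∈ insert (Sum.inl (b, l) : Atom E Λ) s →
      (g = b ∧ l' = l) ∨ Sum.inl (g, l') ∈ s := by
    intro g l' hx
    rcases hx with hx | hx
    · left; simpa using hx
    · exact Or.inr hx
  constructor
  · intro g l₁ g' l₂ hg hg'
    rcases hl _ _ hg with ⟨e1, e2⟩ | kg <;> rcases hl _ _ hg' with ⟨e3, e4⟩ | kg'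
    · rw [e1, e3]; exact h2
    · rw [e1]; exact h1 _ _ kg'
    · rw [e3]; exact fun hh => h1 _ _ kg hh.compl_left
    · exact h.link _ _ _ _ kg kg'
  · intro p q β hp
    obtain ⟨g, l', h4, h5⟩ := h.p1 p q β (hr _ hp)
    exact ⟨g, l', Or.inr h4, h5⟩
  · intro p q β hp
    obtain ⟨g, l', h4, h5⟩ := h.p2 p q β (hr _ hp)
    exact ⟨g, l', Or.inr h4, h5⟩
  · intro p q β hp g l' hg hle
    rcases hl _ _ hg with ⟨rfl, rfl⟩ | hg
    · exact h3 p q β (hr _ hp) hle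
    · exact h.p3 p q β (hr _ hp) g l' hg hle
  · intro p q β p' q' β' hp hp'
    exact h.anti p q β p' q' β' (hr _ hp) (hr _ hp')

lemma Inv.add_pair {F : Filter E} {s : Set (Atom E Λ)} (h : Inv F s) {p q : Set E} {β : Λ}
    (h1 : Low F s p) (h2 : ∃ g l, Sum.inl (g, l) ∈ s ∧ l ≤ β ∧ Le F q g)
    (h3 : ∀ g l, Sum.inl (g, l) ∈ s → l ≤ β → ¬ Le F p g)
    (h4 : ∀ p' q' β', Sum.inr (p', q', β') ∈ s →
      ¬ (Le F p p' ∧ Le F q' q) ∧ ¬ (Le F p' p ∧ Le F q q')) :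
    Inv F (insert (Sum.inr (p, q, β)) s) := by
  have hl : ∀ x : Set E × Λ, Sum.inl x ∈ insert (Sum.inr (p, q, β) : Atom E Λ) s →
      Sum.inl x ∈ s := by
    intro x hx
    rcases hx with hx | hx
    · cases hx
    · exact hx
  have hr : ∀ p' q' β', Sum.inr (p', q', β') ∈ insert (Sum.inr (p, q, β) : Atom E Λ) s →
      (p' = p ∧ q' = q ∧ β' = β) ∨ Sum.inr (p', q', β') ∈ s := by
    intro p' q' β' hx
    rcases hx with hx | hx
    · left; simpa using hx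
    · exact Or.inr hx
  constructor
  · intro g l₁ g' l₂ hg hg'
    exact h.link _ _ _ _ (hl _ hg) (hl _ hg')
  · intro p' q' β' hp
    rcases hr _ _ _ hp with ⟨rfl, rfl, rfl⟩ | hp
    · obtain ⟨g, l', h5, h6⟩ := h1
      exact ⟨g, l', Or.inr h5, h6⟩
    · obtain ⟨g, l', h5, h6⟩ := h.p1 _ _ _ hp
      exact ⟨g, l', Or.inr h5, h6⟩
  · intro p' q' β' hp
    rcases hr _ _ _ hp with ⟨rfl, rfl, rfl⟩ | hp
    · obtain ⟨g, l', h5, h6⟩ := h2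
      exact ⟨g, l', Or.inr h5, h6⟩
    · obtain ⟨g, l', h5, h6⟩ := h.p2 _ _ _ hp
      exact ⟨g, l', Or.inr h5, h6⟩
  · intro p' q' β' hp g l' hg hle
    rcases hr _ _ _ hp with ⟨rfl, rfl, rfl⟩ | hp
    · exact h3 g l' (hl _ hg) hle
    · exact h.p3 _ _ _ hp g l' (hl _ hg) hle
  · intro p₁ q₁ β₁ p₂ q₂ β₂ hp hp' hle hle'
    rcases hr _ _ _ hp with ⟨e1, e2, e3⟩ | kp <;>
      rcases hr _ _ _ hp' with ⟨e4, e5, e6⟩ | kp'
    · exact ⟨e1.trans e4.symm, e2.trans e5.symm⟩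
    · rw [e1] at hle; rw [e2] at hle'
      exact ((h4 _ _ _ kp').1 ⟨hle, hle'⟩).elim
    · rw [e4] at hle; rw [e5] at hle'
      exact ((h4 _ _ _ kp).2 ⟨hle, hle'⟩).elim
    · exact h.anti _ _ _ _ _ _ kp kp' hle hle'

/-- the working condition inside a stage: pairs below `l₀`, everything at most `l₀` -/
def Wk (s : Set (Atom E Λ)) (l₀ : Λ) : Prop :=
  (∀ a ∈ s, lab a ≤ l₀) ∧ ∀ p q β, Sum.inr (p, q, β) ∈ s → β < l₀

lemma decide {F : Filter E} [F.NeBot] {s : Set (Atom E Λ)} (h : Inv F s) {l₀ : Λ} (hw : Wk s l₀)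
    (b : Set E) : ∃ s', s ⊆ s' ∧ (s' \ s).Finite ∧ Inv F s' ∧ Wk s' l₀ ∧
      (∀ x, Sum.inr x ∈ s' → Sum.inr x ∈ s) ∧ (Low F s' b ∨ Low F s' bᶜ) := by
  by_cases hd : Low F s b ∨ Low F s bᶜ
  · exact ⟨s, Subset.rfl, by simp, h, hw, fun _ h => h, hd⟩
  have key : ∀ b : Set E, ¬ Low F s bᶜ → ¬ Le F bᶜ b → ∃ s', s ⊆ s' ∧ (s' \ s).Finite ∧
      Inv F s' ∧ Wk s' l₀ ∧ (∀ x, Sum.inr x ∈ s' → Sum.inr x ∈ s) ∧ Low F s' b := by
    intro b h1 h2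
    have hr : ∀ x, Sum.inr x ∈ insert (Sum.inl (b, l₀) : Atom E Λ) s → Sum.inr x ∈ s := by
      intro x hx
      rcases hx with hx | hx
      · cases hx
      · exact hx
    refine ⟨insert (Sum.inl (b, l₀)) s, subset_insert _ _, finite_insert_diff _ _,
      h.add_gen (fun g l hg hh => h1 ⟨g, l, hg, hh⟩) h2
        (fun p q β hp hle => (not_le.2 (hw.2 p q β hp) hle).elim), ⟨?_, ?_⟩, hr,
      ⟨b, l₀, mem_insert _ _, Le.rfl⟩⟩
    · rintro a (rfl | ha)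
      · exact le_rfl
      · exact hw.1 a ha
    · intro p q β hp
      exact hw.2 p q β (hr _ hp)
  rw [not_or] at hd
  by_cases hb : Le F bᶜ b
  · have : ¬ Le F bᶜᶜ bᶜ := by
      intro h2
      rw [compl_compl] at h2
      obtain ⟨e, he1, he2⟩ := (hb.and h2).exists
      by_cases he : e ∈ b
      · exact he2 he he
      · exact he (he1 he)
    obtain ⟨s', h1, h2, h3, h4, h5, h6⟩ := key bᶜ (by simpa using hd.1) this
    exact ⟨s', h1, h2, h3, h4, h5, Or.inr h6⟩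
  · obtain ⟨s', h1, h2, h3, h4, h5, h6⟩ := key b hd.2 hb
    exact ⟨s', h1, h2, h3, h4, h5, Or.inl h6⟩

/-- the conclusion of a stage -/
def Res (F : Filter E) (s : Set (Atom E Λ)) (l₁ : Λ) (x₁ x₂ y₁ y₂ : Set E) : Prop :=
  ∃ s', s ⊆ s' ∧ (s' \ s).Finite ∧ Inv F s' ∧ (∀ a ∈ s', lab a ≤ l₁) ∧
    ∃ z₁ z₂, Crit s' z₁ z₂ ∧ Le F x₁ z₁ ∧ Le F x₂ z₂ ∧ Le F z₁ y₁ ∧ Le F z₂ y₂

/-- no critical pair lies below `x` or above `y` -/
def Unsat (F : Filter E) (s : Set (Atom E Λ)) (x₁ x₂ y₁ y₂ : Set E) : Prop :=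
  ∀ a₁ a₂, Crit s a₁ a₂ → ¬ (Le F a₁ x₁ ∧ Le F a₂ x₂) ∧ ¬ (Le F y₁ a₁ ∧ Le F y₂ a₂)

/-- adding a fresh generator with a top label and a pair -/
lemma finishA {F : Filter E} {s : Set (Atom E Λ)} (h : Inv F s) {l₀ l₁ : Λ} (hw : Wk s l₀)
    (hl : l₀ < l₁) {p q : Set E} (hq : Low F s q)
    (hp1 : ∀ g l, Sum.inl (g, l) ∈ s → ¬ Le F p g) (hp2 : ∀ g l, Sum.inl (g, l) ∈ s → ¬ Le F pᶜ g)
    (h4 : ∀ p' q' β', Sum.inr (p', q', β') ∈ s →
      ¬ (Le F p p' ∧ Le F q' q) ∧ ¬ (Le F p' p ∧ Le F q q')) :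
    ∃ s', s ⊆ s' ∧ (s' \ s).Finite ∧ Inv F s' ∧ (∀ a ∈ s', lab a ≤ l₁) ∧
      Sum.inr (p, q, l₀) ∈ s' := by
  obtain ⟨g₀, l, hg₀, hqg⟩ := hq
  have hself : ¬ Le F pᶜ p := by
    intro hh
    refine hp2 g₀ l hg₀ ?_
    filter_upwards [hh] with e he h1 using (h1 (he h1)).elim
  have h1 : Inv F (insert (Sum.inl (p, l₁)) s) :=
    h.add_gen hp2 hself fun p' q' β hp hle => (not_le.2 ((hw.2 _ _ _ hp).trans hl) hle).elim
  have h2 : Inv F (insert (Sum.inr (p, q, l₀)) (insert (Sum.inl (p, l₁)) s)) := by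
    refine h1.add_pair ⟨p, l₁, mem_insert _ _, Le.rfl⟩
      ⟨g₀, l, Or.inr hg₀, hw.1 _ hg₀, hqg⟩ ?_ ?_
    · intro g l' hg hle
      rcases hg with hg | hg
      · have : l' = l₁ := by simp at hg; exact hg.2
        exact (not_le.2 hl (this ▸ hle)).elim
      · exact hp1 g l' hg
    · intro p' q' β' hp
      rcases hp with hp | hp
      · cases hp
      · exact h4 _ _ _ hp
  refine ⟨_, (subset_insert _ _).trans (subset_insert _ _),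
    finite_diff_trans (finite_insert_diff _ _) (finite_insert_diff _ _), h2, ?_, mem_insert _ _⟩
  rintro a (rfl | rfl | ha)
  · exact hl.le
  · exact le_rfl
  · exact (hw.1 a ha).trans hl.le

lemma caseA {F : Filter E} [F.NeBot] (hF : Split F) {s : Set (Atom E Λ)} (h : Inv F s)
    (hs : #s < continuum) {l₀ l₁ : Λ} (hw : Wk s l₀) (hl : l₀ < l₁) {x₁ x₂ y₁ y₂ : Set E}
    (h₁ : Le F x₁ y₁) (h₂ : Le F x₂ y₂) (hx : Low F s x₁) (hy : Low F s y₁ᶜ)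
    (hu : Unsat F s x₁ x₂ y₁ y₂) : Res F s l₁ x₁ x₂ y₁ y₂ := by
  obtain ⟨z₂, hz₂x, hz₂y, hz₂⟩ := generic hF (known s) (known_small hs) h₂
  obtain ⟨s', hss', hfin, h', hw', hpair, hdec⟩ := decide h hw z₂
  have hs' := small_of_finite_diff hs hfin
  obtain ⟨z₁, hz₁x, hz₁y, hz₁⟩ := generic hF (known s ∪ known s') (lt_of_le_of_lt (mk_union_le _ _)
    (add_lt_of_lt aleph0_le_continuum (known_small hs) (known_small hs'))) h₁
  have hA : ∀ g l, Sum.inl (g, l) ∈ s' → ¬ Le F z₁ g := by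
    intro g l hg
    refine (hz₁ g (Or.inr (gen_known hg).1)).2 fun hh => ?_
    exact h'.not_low (hy.mono hss') ⟨g, l, hg, Le.rfl⟩ (by simpa using hh)
  have hB : ∀ g l, Sum.inl (g, l) ∈ s' → ¬ Le F z₁ᶜ g := by
    intro g l hg hh
    refine (hz₁ gᶜ (Or.inr (gen_known hg).2)).1 (fun hh => ?_) hh.compl_left
    exact h'.not_low ⟨g, l, hg, Le.rfl⟩ (hx.mono hss') hh
  have hC : ∀ a₁ a₂, Crit s a₁ a₂ → ¬ (Le F a₁ z₁ ∧ Le F a₂ z₂) ∧ ¬ (Le F z₁ a₁ ∧ Le F z₂ a₂) := by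
    intro a₁ a₂ ha
    have k := crit_known ha
    have u := hu a₁ a₂ ha
    constructor
    · rintro ⟨e1, e2⟩
      refine u.1 ⟨?_, ?_⟩
      · by_contra hh; exact (hz₁ a₁ (Or.inl k.1)).1 hh e1
      · by_contra hh; exact (hz₂ a₂ k.2).1 hh e2
    · rintro ⟨e1, e2⟩
      refine u.2 ⟨?_, ?_⟩
      · by_contra hh; exact (hz₁ a₁ (Or.inl k.1)).2 hh e1
      · by_contra hh; exact (hz₂ a₂ k.2).2 hh e2
  rcases hdec with hdec | hdec
  · obtain ⟨s'', k1, k2, k3, k4, k5⟩ := finishA (p := z₁ᶜ) h' hw' hl hdec hB (by simpa using hA) (by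
      intro p' q' β' hp
      have := hC p'ᶜ q' ⟨p', q', β', hpair _ hp, Or.inr ⟨rfl, rfl⟩⟩
      exact ⟨fun hh => this.1 ⟨hh.1.compl_left, hh.2⟩, fun hh => this.2 ⟨hh.1.compl_right, hh.2⟩⟩)
    exact ⟨s'', hss'.trans k1, finite_diff_trans hfin k2, k3, k4, z₁, z₂,
      ⟨z₁ᶜ, z₂, l₀, k5, Or.inr ⟨by simp, rfl⟩⟩, hz₁x, hz₂x, hz₁y, hz₂y⟩
  · obtain ⟨s'', k1, k2, k3, k4, k5⟩ := finishA (p := z₁) h' hw' hl hdec hA hB (by
      intro p' q' β' hp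
      have := hC p' q'ᶜ ⟨p', q', β', hpair _ hp, Or.inl ⟨rfl, rfl⟩⟩
      exact ⟨fun hh => this.2 ⟨hh.1, hh.2.compl_right⟩, fun hh => this.1 ⟨hh.1, hh.2.compl_left⟩⟩)
    exact ⟨s'', hss'.trans k1, finite_diff_trans hfin k2, k3, k4, z₁, z₂,
      ⟨z₁, z₂ᶜ, l₀, k5, Or.inl ⟨rfl, by simp⟩⟩, hz₁x, hz₂x, hz₁y, hz₂y⟩

lemma caseB1 {F : Filter E} (hF : Split F) {s : Set (Atom E Λ)} (h : Inv F s)
    (hs : #s < continuum) {l₁ : Λ} (hw : ∀ a ∈ s, lab a ≤ l₁) {x₁ x₂ y₁ y₂ : Set E}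
    (h₁ : Le F x₁ y₁) (h₂ : Le F x₂ y₂) (hy : Low F s y₁)
    {g₀ : Set E} {β : Λ} (hg₀ : Sum.inl (g₀, β) ∈ s) (hy₂ : Le F y₂ᶜ g₀)
    (hy₁ : ∀ g l, Sum.inl (g, l) ∈ s → l ≤ β → ¬ Le F y₁ g)
    (hu : Unsat F s x₁ x₂ y₁ y₂) : Res F s l₁ x₁ x₂ y₁ y₂ := by
  obtain ⟨z₂, hz₂x, hz₂y, hz₂⟩ := generic hF (insert y₁ᶜ (known s))
    (small_of_finite_diff (known_small hs) (finite_insert_diff _ _)) h₂
  have hA : ∀ g l, Sum.inl (g, l) ∈ s → ¬ Le F z₂ᶜᶜ g := by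
    intro g l hg
    rw [compl_compl]
    refine (hz₂ g (Or.inr (gen_known hg).1)).2 fun hh => ?_
    exact h.link g₀ β g l hg₀ hg (hy₂.compl_left.trans hh)
  have h1 : Inv F (insert (Sum.inl (z₂ᶜ, β)) s) := by
    refine h.add_gen hA ?_ ?_
    · intro hh
      refine hA g₀ β hg₀ ?_
      filter_upwards [hh] with e he h1 using (h1 (he h1)).elim
    · intro p q β' hp hle hh
      refine (hz₂ pᶜ (Or.inr (crit_known ⟨p, q, β', hp, Or.inr ⟨rfl, rfl⟩⟩).1)).2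
        (fun h2 => ?_) hh.compl_right
      exact h.p3 p q β' hp g₀ β hg₀ hle (h2.compl_right.trans hy₂)
  have hB : ¬ Le F y₁ z₂ᶜ := by
    intro hh
    refine (hz₂ y₁ᶜ (mem_insert _ _)).2 (fun h2 => ?_) hh.compl_right
    exact hy₁ g₀ β hg₀ le_rfl (h2.compl_right.trans hy₂)
  obtain ⟨z₁, hz₁x, hz₁y, hz₁⟩ := generic hF (insert z₂ᶜ (known s))
    (small_of_finite_diff (known_small hs) (finite_insert_diff _ _)) h₁
  have hC : ∀ a₁ a₂, Crit s a₁ a₂ → ¬ (Le F a₁ z₁ ∧ Le F a₂ z₂) ∧ ¬ (Le F z₁ a₁ ∧ Le F z₂ a₂) := by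
    intro a₁ a₂ ha
    have k := crit_known ha
    have u := hu a₁ a₂ ha
    constructor
    · rintro ⟨e1, e2⟩
      refine u.1 ⟨?_, ?_⟩
      · by_contra hh; exact (hz₁ a₁ (Or.inr k.1)).1 hh e1
      · by_contra hh; exact (hz₂ a₂ (Or.inr k.2)).1 hh e2
    · rintro ⟨e1, e2⟩
      refine u.2 ⟨?_, ?_⟩
      · by_contra hh; exact (hz₁ a₁ (Or.inr k.1)).2 hh e1
      · by_contra hh; exact (hz₂ a₂ (Or.inr k.2)).2 hh e2
  have h2 : Inv F (insert (Sum.inr (z₁, z₂ᶜ, β)) (insert (Sum.inl (z₂ᶜ, β)) s)) := by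
    refine h1.add_pair ((hy.of_le hz₁y).mono (subset_insert _ _))
      ⟨z₂ᶜ, β, mem_insert _ _, le_rfl, Le.rfl⟩ ?_ ?_
    · intro g l hg hle
      rcases hg with hg | hg
      · have : g = z₂ᶜ := by simp at hg; exact hg.1
        rw [this]
        exact (hz₁ _ (mem_insert _ _)).2 hB
      · exact (hz₁ g (Or.inr (gen_known hg).1)).2 (hy₁ g l hg hle)
    · intro p' q' β' hp
      rcases hp with hp | hp
      · cases hp
      · have := hC p' q'ᶜ ⟨p', q', β', hp, Or.inl ⟨rfl, rfl⟩⟩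
        exact ⟨fun hh => this.2 ⟨hh.1, hh.2.compl_right⟩, fun hh => this.1 ⟨hh.1, hh.2.compl_left⟩⟩
  refine ⟨_, (subset_insert _ _).trans (subset_insert _ _),
    finite_diff_trans (finite_insert_diff _ _) (finite_insert_diff _ _), h2, ?_, z₁, z₂,
    ⟨z₁, z₂ᶜ, β, mem_insert _ _, Or.inl ⟨rfl, by simp⟩⟩, hz₁x, hz₂x, hz₁y, hz₂y⟩
  rintro a (rfl | rfl | ha)
  · exact hw (Sum.inl (g₀, β)) hg₀
  · exact hw (Sum.inl (g₀, β)) hg₀
  · exact hw a ha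

/-- weak conclusion of a stage: the new critical pair is inside the interval or above it -/
def Res' (F : Filter E) (s : Set (Atom E Λ)) (l₁ : Λ) (x₁ x₂ y₁ y₂ : Set E) : Prop :=
  ∃ s', s ⊆ s' ∧ (s' \ s).Finite ∧ Inv F s' ∧ (∀ a ∈ s', lab a ≤ l₁) ∧
    ∃ z₁ z₂, Crit s' z₁ z₂ ∧ ((Le F z₁ x₁ ∧ Le F z₂ x₂) ∨
      (Le F x₁ z₁ ∧ Le F x₂ z₂ ∧ Le F z₁ y₁ ∧ Le F z₂ y₂) ∨ (Le F y₁ z₁ ∧ Le F y₂ z₂))

lemma caseB {F : Filter E} [F.NeBot] (hF : Split F) {s : Set (Atom E Λ)} (h : Inv F s)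
    (hs : #s < continuum) {l₀ l₁ : Λ} (hw : Wk s l₀) (hl : l₀ < l₁) {x₁ x₂ y₁ y₂ : Set E}
    (h₁ : Le F x₁ y₁) (h₂ : Le F x₂ y₂) (hy : Low F s y₁)
    (hu : Unsat F s x₁ x₂ y₁ y₂) : Res' F s l₁ x₁ x₂ y₁ y₂ := by
  by_cases hb : ∃ g₀ β, Sum.inl (g₀, β) ∈ s ∧ Le F y₂ᶜ g₀ ∧
      ∀ g l, Sum.inl (g, l) ∈ s → l ≤ β → ¬ Le F y₁ g
  · obtain ⟨g₀, β, k1, k2, k3⟩ := hb
    obtain ⟨s', e1, e2, e3, e4, z₁, z₂, e5, e6⟩ :=
      caseB1 hF h hs (fun a ha => (hw.1 a ha).trans hl.le) h₁ h₂ hy k1 k2 k3 hu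
    exact ⟨s', e1, e2, e3, e4, z₁, z₂, e5, Or.inr (Or.inl e6)⟩
  · have hu' : Unsat F s y₁ y₂ univ univ := by
      intro a₁ a₂ ha
      refine ⟨?_, fun hh => (hu a₁ a₂ ha).2
        ⟨(Le.of_subset (subset_univ _)).trans hh.1, (Le.of_subset (subset_univ _)).trans hh.2⟩⟩
      rintro ⟨e1, e2⟩
      obtain ⟨p, q, β, hp, ⟨rfl, rfl⟩ | ⟨rfl, rfl⟩⟩ := ha
      · obtain ⟨g, l, hg, hle, hq⟩ := h.p2 _ _ _ hp
        refine hb ⟨g, l, hg, e2.compl_left.trans hq, fun g' l' hg' hle' hh => ?_⟩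
        exact h.p3 _ _ _ hp g' l' hg' (hle'.trans hle) (e1.trans hh)
      · exact h.not_low (h.p1 _ _ _ hp) hy e1
    obtain ⟨s', e1, e2, e3, e4, z₁, z₂, e5, e6⟩ :=
      caseA hF h hs hw hl (Le.of_subset (subset_univ _)) (Le.of_subset (subset_univ _)) hy
        (hy.of_le (Le.of_subset (by simp))) hu'
    exact ⟨s', e1, e2, e3, e4, z₁, z₂, e5, Or.inr (Or.inr ⟨e6.1, e6.2.1⟩)⟩

lemma stage_step {F : Filter E} [F.NeBot] (hF : Split F) {s : Set (Atom E Λ)} (h : Inv F s)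
    (hs : #s < continuum) {l₀ l₁ : Λ} (hw : ∀ a ∈ s, lab a < l₀) (hl : l₀ < l₁)
    (τ : Set E × Set E × Set E × Set E) :
    ∃ s', s ⊆ s' ∧ (s' \ s).Finite ∧ Inv F s' ∧ (∀ a ∈ s', lab a ≤ l₁) ∧ Sat F s' τ := by
  obtain ⟨x₁, x₂, y₁, y₂⟩ := τ
  have hw0 : Wk s l₀ := ⟨fun a ha => (hw a ha).le, fun p q β hp => hw _ hp⟩
  obtain ⟨s₁, a1, a2, a3, a4, -, a6⟩ := decide h hw0 x₁
  obtain ⟨s₂, b1, b2, b3, b4, -, b6⟩ := decide a3 a4 y₁
  have hfin := finite_diff_trans a2 b2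
  have hs₂ := small_of_finite_diff hs hfin
  by_cases hh : Le F x₁ y₁ ∧ Le F x₂ y₂ ∧ Unsat F s₂ x₁ x₂ y₁ y₂
  · obtain ⟨h₁, h₂, hu⟩ := hh
    have hres : Res' F s₂ l₁ x₁ x₂ y₁ y₂ := by
      rcases b6 with b6 | b6
      · exact caseB hF b3 hs₂ b4 hl h₁ h₂ b6 hu
      · rcases a6 with a6 | a6
        · obtain ⟨s', e1, e2, e3, e4, z₁, z₂, e5, e6⟩ :=
            caseA hF b3 hs₂ b4 hl h₁ h₂ (a6.mono b1) b6 hu
          exact ⟨s', e1, e2, e3, e4, z₁, z₂, e5, Or.inr (Or.inl e6)⟩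
        · have hu' : Unsat F s₂ y₁ᶜ y₂ᶜ x₁ᶜ x₂ᶜ := by
            intro a₁ a₂ ha
            have := hu _ _ ha.compl
            exact ⟨fun k => this.2 ⟨k.1.compl_right, k.2.compl_right⟩,
              fun k => this.1 ⟨k.1.compl_left, k.2.compl_left⟩⟩
          obtain ⟨s', e1, e2, e3, e4, z₁, z₂, e5, e6⟩ :=
            caseB hF b3 hs₂ b4 hl h₁.compl h₂.compl (a6.mono b1) hu'
          refine ⟨s', e1, e2, e3, e4, z₁ᶜ, z₂ᶜ, e5.compl, ?_⟩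
          rcases e6 with e6 | e6 | e6
          · exact Or.inr (Or.inr ⟨e6.1.compl_right, e6.2.compl_right⟩)
          · exact Or.inr (Or.inl ⟨e6.2.2.1.compl_right, e6.2.2.2.compl_right,
              e6.1.compl_left, e6.2.1.compl_left⟩)
          · exact Or.inl ⟨e6.1.compl_left, e6.2.compl_left⟩
    obtain ⟨s', e1, e2, e3, e4, z₁, z₂, e5, e6⟩ := hres
    exact ⟨s', (a1.trans b1).trans e1, finite_diff_trans hfin e2, e3, e4,
      fun _ _ => ⟨z₁, z₂, e5, e6⟩⟩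
  · refine ⟨s₂, a1.trans b1, hfin, b3, fun a ha => (b4.1 a ha).trans hl.le, fun h₁ h₂ => ?_⟩
    have hu : ¬ Unsat F s₂ x₁ x₂ y₁ y₂ := fun hu => hh ⟨h₁, h₂, hu⟩
    unfold Unsat at hu
    push Not at hu
    obtain ⟨a₁, a₂, ha, hu⟩ := hu
    refine ⟨a₁, a₂, ha, ?_⟩
    by_cases k : Le F a₁ x₁ ∧ Le F a₂ x₂
    · exact Or.inl k
    · exact Or.inr (Or.inr (hu fun k1 k2 => k ⟨k1, k2⟩))

lemma inv_chain {F : Filter E} (c : Set (Set (Atom E Λ))) (hc : IsChain (· ⊆ ·) c)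
    (h : ∀ s ∈ c, Inv F s) : Inv F (⋃₀ c) := by
  have two : ∀ a b, a ∈ ⋃₀ c → b ∈ ⋃₀ c → ∃ s ∈ c, a ∈ s ∧ b ∈ s := by
    rintro a b ⟨s, hs, ha⟩ ⟨t, ht, hb⟩
    rcases hc.total hs ht with k | k
    · exact ⟨t, ht, k ha, hb⟩
    · exact ⟨s, hs, ha, k hb⟩
  constructor
  · intro g l g' l' h1 h2
    obtain ⟨s, hs, k1, k2⟩ := two _ _ h1 h2
    exact (h s hs).link _ _ _ _ k1 k2
  · rintro p q b ⟨s, hs, h1⟩
    obtain ⟨g, l, k1, k2⟩ := (h s hs).p1 _ _ _ h1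
    exact ⟨g, l, ⟨s, hs, k1⟩, k2⟩
  · rintro p q b ⟨s, hs, h1⟩
    obtain ⟨g, l, k1, k2⟩ := (h s hs).p2 _ _ _ h1
    exact ⟨g, l, ⟨s, hs, k1⟩, k2⟩
  · intro p q b h1 g l h2
    obtain ⟨s, hs, k1, k2⟩ := two _ _ h1 h2
    exact (h s hs).p3 _ _ _ k1 _ _ k2
  · intro p q b p' q' b' h1 h2
    obtain ⟨s, hs, k1, k2⟩ := two _ _ h1 h2
    exact (h s hs).anti _ _ _ _ _ _ k1 k2

/-- The macroscopic structure exists. -/
theorem macro_exists [Countable E] (F : Filter E) [F.NeBot] (hF : Split F) :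
    ∃ (Λ : Type) (_ : LinearOrder Λ) (_ : WellFoundedLT Λ) (s : Set (Atom E Λ)),
      Inv F s ∧ ∀ τ, Sat F s τ := by
  let T : Type := (continuum.{0}).ord.ToType
  have hcard : #(Set E × Set E × Set E × Set E) ≤ #T := by
    have h1 : #(Set E) ≤ continuum := by
      rw [mk_set, ← two_power_aleph0]
      exact power_le_power_left two_ne_zero mk_le_aleph0
    have h2 : ∀ a b : Cardinal.{0}, a ≤ continuum → b ≤ continuum → a * b ≤ continuum :=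
      fun a b ha hb => (mul_le_mul' ha hb).trans continuum_mul_self.le
    rw [mk_ord_toType]
    simp only [mk_prod, lift_id]
    exact h2 _ _ h1 (h2 _ _ h1 (h2 _ _ h1 h1))
  obtain ⟨f⟩ := hcard
  obtain ⟨task, htask⟩ := f.injective.hasLeftInverse
  obtain ⟨s, h1, h2⟩ := build (σ := Atom E (T ×ₗ Bool)) (T := T) continuum aleph0_lt_continuum
    (fun t => mk_Iio_toType_ord_lt t) task (fun a => (ofLex (lab a)).1) (Inv F) (Sat F)
    inv_chain (by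
      intro s s' τ hs h k1 k2
      obtain ⟨a₁, a₂, e1, e2⟩ := h k1 k2
      exact ⟨a₁, a₂, e1.mono hs, e2⟩) (by
      intro t s τ h hb hs
      obtain ⟨s', e1, e2, e3, e4, e5⟩ := stage_step hF h hs (l₀ := toLex (t, false))
        (l₁ := toLex (t, true)) (fun a ha => Prod.Lex.toLex_lt_toLex.2 (Or.inl (hb a ha)))
        (Prod.Lex.toLex_lt_toLex.2 (Or.inr ⟨rfl, Bool.false_lt_true⟩)) τ
      refine ⟨s', e1, e2, e3, fun a ha => ?_, e5⟩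
      rcases Prod.Lex.toLex_le_toLex.1 (e4 a ha) with k | k
      · exact k.le
      · exact k.1.le)
  refine ⟨T ×ₗ Bool, inferInstance, inferInstance, s, h1, fun τ => ?_⟩
  rw [← htask τ]
  exact h2 _

end Crest.Agent.IM
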