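import Crest.Agent.IM.Local
import Crest.Agent.IM.Macro

/-! The concrete ground set: blocks of Boolean functions, with independent halves. -/

set_option autoImplicit false

namespace Crest.Agent.IM

open Set Filter Cardinal

/-- the basic ground set -/
abbrev EE : Type := Σ n : ℕ, ((Fin n → Bool) → Bool)

/-- block sizes -/
def NN (n : ℕ) : ℕ := 2 ^ 2 ^ n

/-- block index -/
def bE : EE → ℕ := fun e => e.1

/-- block index on the doubled ground set -/
def bG : EE ⊕ EE → ℕ := Sum.elim bE bE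

lemma block_eq (Z : Set EE) (m : ℕ) :
    Z ∩ {g | bE g = m} = Sigma.mk m '' {ω | (⟨m, ω⟩ : EE) ∈ Z} := by
  ext ⟨n, ω⟩
  constructor
  · rintro ⟨h1, h2⟩
    obtain rfl : n = m := h2
    exact ⟨ω, h1, rfl⟩
  · rintro ⟨ω', h1, h2⟩
    rw [← h2]
    exact ⟨h1, rfl⟩

lemma cnt_E (Z : Set EE) (m : ℕ) : cnt bE Z m = {ω | (⟨m, ω⟩ : EE) ∈ Z}.ncard := by
  unfold cnt
  rw [block_eq, ncard_image_of_injective _ sigma_mk_injective]

lemma fin_E (m : ℕ) : {g | bE g = m}.Finite := by
  have := block_eq univ m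
  rw [univ_inter] at this
  rw [this]
  exact (toFinite _).image _

lemma cnt_univ_E (m : ℕ) : cnt bE univ m = NN m := by
  rw [cnt_E]
  simp [NN]

lemma block_G (Z : Set (EE ⊕ EE)) (m : ℕ) : Z ∩ {g | bG g = m} =
    Sum.inl '' (Sum.inl ⁻¹' Z ∩ {g | bE g = m}) ∪ Sum.inr '' (Sum.inr ⁻¹' Z ∩ {g | bE g = m}) := by
  ext (g | g) <;> simp [bG]

lemma cnt_G (Z : Set (EE ⊕ EE)) (m : ℕ) :
    cnt bG Z m = cnt bE (Sum.inl ⁻¹' Z) m + cnt bE (Sum.inr ⁻¹' Z) m := by
  unfold cnt
  rw [block_G, ncard_union_eq _ (((fin_E m).inter_of_right _).image _)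
    (((fin_E m).inter_of_right _).image _), ncard_image_of_injective _ Sum.inl_injective,
    ncard_image_of_injective _ Sum.inr_injective]
  rw [disjoint_left]
  rintro _ ⟨a, -, rfl⟩ ⟨b, -, h⟩
  cases h

lemma NN_mono : Monotone NN := fun _ _ h =>
  Nat.pow_le_pow_right two_pos (Nat.pow_le_pow_right two_pos h)

lemma NN_succ (n : ℕ) : NN (n + 1) = NN n * NN n := by
  unfold NN
  rw [← pow_add, pow_succ, mul_two]

lemma NN_big (k : ℕ) : ∀ᶠ n in atTop, k * (2 * n + 3) ≤ NN n := by
  filter_upwards [eventually_ge_atTop (k + 3)] with n hn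
  have h1 : n < 2 ^ n := Nat.lt_two_pow_self
  have h2 : 2 * n ≤ 2 ^ n := by
    obtain ⟨r, rfl⟩ : ∃ r, n = r + 1 := ⟨n - 1, by omega⟩
    have : r < 2 ^ r := Nat.lt_two_pow_self
    rw [pow_succ]; omega
  have h3 : 2 ^ (2 * n) ≤ NN n := Nat.pow_le_pow_right two_pos h2
  have h4 : 3 * n ≤ 2 ^ n + 2 ^ n := by omega
  have h5 : 2 ^ (2 * n) = 2 ^ n * 2 ^ n := by rw [two_mul, pow_add]
  have h6 : k * (2 * n + 3) ≤ (2 * n) * (2 * n) := by nlinarith
  calc _ ≤ (2 * n) * (2 * n) := h6
    _ ≤ 2 ^ n * 2 ^ n := Nat.mul_le_mul h2 h2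
    _ ≤ NN n := h5 ▸ h3

lemma blocks_of {G : Type} {blk : G → ℕ} (hf : ∀ m, {g | blk g = m}.Finite)
    (hb : ∀ m, {g | blk g = m}.ncard ≤ 2 * NN m) : Blocks blk NN := by
  have hc : ∀ n, {g | blk g ≤ n}.ncard ≤ 2 * (n + 1) * NN n := by
    intro n
    induction n with
    | zero => simpa using hb 0
    | succ n ih =>
      have : {g | blk g ≤ n + 1} = {g | blk g ≤ n} ∪ {g | blk g = n + 1} := by
        ext g; simp only [mem_ofPred_eq, mem_union]; omega
      rw [this]
      have h1 := ncard_union_le {g | blk g ≤ n} {g | blk g = n + 1}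
      have h2 := hb (n + 1)
      have h3 : NN n ≤ NN (n + 1) := NN_mono (Nat.le_succ n)
      nlinarith
  refine ⟨hf, hb, fun m => by unfold NN; positivity, NN_mono, fun k => ?_⟩
  filter_upwards [NN_big k] with n hn
  have h1 := hc n
  have h2 : 0 < NN n := by unfold NN; positivity
  rw [NN_succ]
  calc k * ({g | blk g ≤ n}.ncard + 1) ≤ k * ((2 * n + 3) * NN n) :=
        Nat.mul_le_mul_left _ (by nlinarith)
    _ = k * (2 * n + 3) * NN n := by ring
    _ ≤ _ := Nat.mul_le_mul_right _ hn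

lemma blocksE : Blocks bE NN := blocks_of fin_E fun m => by
  have := cnt_univ_E m
  unfold cnt at this
  rw [univ_inter] at this
  omega

lemma blocksG : Blocks bG NN := blocks_of (fun m => by
    have := block_G univ m
    rw [univ_inter] at this
    rw [this]
    exact (((fin_E m).inter_of_right _).image _).union (((fin_E m).inter_of_right _).image _))
  fun m => by
    have := cnt_G univ m
    rw [preimage_univ, preimage_univ, cnt_univ_E] at this
    unfold cnt at this
    rw [univ_inter] at this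
    omega

lemma null_G (Z : Set (EE ⊕ EE)) :
    Null bG NN Z ↔ Null bE NN (Sum.inl ⁻¹' Z) ∧ Null bE NN (Sum.inr ⁻¹' Z) := by
  constructor
  · intro h
    constructor <;> intro k <;> filter_upwards [h k] with m hm <;> rw [cnt_G] at hm <;> nlinarith
  · rintro ⟨h1, h2⟩ k
    filter_upwards [h1 (2 * k), h2 (2 * k)] with m e1 e2
    rw [cnt_G]
    nlinarith

/-- the filter of sets of density one -/
def FF : Filter EE where
  sets := {S | Null bE NN Sᶜ}
  univ_sets := by simpa using blocksE.null_finite finite_empty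
  sets_of_superset := fun h1 h2 => blocksE.null_mono (compl_subset_compl.2 h2) h1
  inter_sets := fun h1 h2 => by
    simp only [mem_ofPred_eq, compl_inter]
    exact Null.union h1 h2

lemma freq_FF (Z : Set EE) : (∃ᶠ e in FF, e ∈ Z) ↔ ¬ Null bE NN Z := by
  unfold Filter.Frequently
  have : (∀ᶠ e in FF, ¬ e ∈ Z) ↔ Null bE NN Zᶜᶜ := Iff.rfl
  rw [this, compl_compl]

lemma le_FF (a b : Set EE) : Le FF a b ↔ Null bE NN (a \ b) := by
  rw [← not_iff_not, not_le_iff, ← freq_FF]
  rfl

lemma not_null_univ : ¬ Null bE NN univ := by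
  intro h
  obtain ⟨m, hm⟩ := (h 2).exists
  rw [cnt_univ_E] at hm
  have := blocksE.pos m
  omega

instance : FF.NeBot := (frequently_true_iff_neBot _).1 ((freq_FF Set.univ).2 not_null_univ)

/-- the half of the ground set attached to a branch and a value -/
def half (x : ℕ → Bool) (b : Bool) : Set EE := {e | e.2 (fun i => x i) = b}

lemma card_fixed {A : Type} [Fintype A] [DecidableEq A] (D : Finset A) (b : Bool) :
    2 ^ D.card * {ω : A → Bool | ∀ s ∈ D, ω s = b}.ncard ≤ 2 ^ Fintype.card A := by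
  have h1 : {ω : A → Bool | ∀ s ∈ D, ω s = b}.ncard ≤
      (univ : Set ({s // s ∉ D} → Bool)).ncard := by
    refine ncard_le_ncard_of_injOn (fun ω s => ω s.1) (fun _ _ => mem_univ _) ?_
    intro ω h ω' h' e
    funext s
    by_cases hs : s ∈ D
    · rw [h s hs, h' s hs]
    · exact congrFun e ⟨s, hs⟩
  rw [ncard_univ, Nat.card_eq_fintype_card, Fintype.card_fun, Fintype.card_bool,
    Fintype.card_subtype_compl, Fintype.card_coe] at h1
  have h2 : D.card ≤ Fintype.card A := Finset.card_le_univ D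
  calc _ ≤ 2 ^ D.card * 2 ^ (Fintype.card A - D.card) := Nat.mul_le_mul_left _ h1
    _ = _ := by rw [← pow_add]; congr 1; omega

lemma cnt_inter_half (X : Finset (ℕ → Bool)) (b : Bool) :
    ∀ᶠ m in atTop, 2 ^ X.card * cnt bE (⋂ x ∈ X, half x b) m ≤ NN m := by
  classical
  have h1 : ∀ᶠ m : ℕ in atTop, ∀ x ∈ X, ∀ y ∈ X, (fun i : Fin m => x i) = (fun i : Fin m => y i) →
      x = y := by
    simp only [eventually_all_finset]
    intro x _ y _
    by_cases h : x = y
    · exact Eventually.of_forall fun _ _ => h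
    · obtain ⟨i, hi⟩ := Function.ne_iff.1 h
      filter_upwards [eventually_gt_atTop i] with m hm e
      exact (hi (congrFun e ⟨i, hm⟩)).elim
  filter_upwards [h1] with m hm
  have h2 := card_fixed (X.image fun x => fun i : Fin m => x i) b
  rw [Finset.card_image_of_injOn fun x hx y hy e => hm x hx y hy e] at h2
  rw [cnt_E]
  convert h2 using 3
  · ext ω
    simp [half]
  · simp [NN]

lemma null_biUnion (X : Finset (ℕ → Bool)) (f : (ℕ → Bool) → Set EE)
    (h : ∀ x ∈ X, Null bE NN (f x)) : Null bE NN (⋃ x ∈ X, f x) := by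
  classical
  induction X using Finset.induction_on with
  | empty => simpa using blocksE.null_finite finite_empty
  | insert a s _ ih =>
    rw [Finset.set_biUnion_insert]
    exact (h a (Finset.mem_insert_self _ _)).union
      (ih fun x hx => h x (Finset.mem_insert_of_mem hx))

lemma bad_finite {Z : Set EE} (hZ : ¬ Null bE NN Z) (b : Bool) :
    {x | Null bE NN (Z \ half x b)}.Finite := by
  by_contra hinf
  obtain ⟨k, hk⟩ := not_null_iff.1 hZ
  obtain ⟨X, hX, hc⟩ := Set.Infinite.exists_subset_card_eq hinf (2 * k)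
  have h1 := null_biUnion X (fun x => Z \ half x b) fun x hx => hX hx
  obtain ⟨m, e1, e2, e3⟩ := (hk.and_eventually ((cnt_inter_half X b).and (h1 (2 * k)))).exists
  have h2 : cnt bE Z m ≤ cnt bE (⋂ x ∈ X, half x b) m + cnt bE (⋃ x ∈ X, Z \ half x b) m := by
    refine (blocksE.cnt_mono fun g _ hg => ?_).trans (cnt_union_le _ _ _)
    by_cases h : g ∈ ⋂ x ∈ X, half x b
    · exact Or.inl h
    · simp only [mem_iInter, not_forall] at h
      obtain ⟨x, hx, h⟩ := h
      exact Or.inr (mem_biUnion hx ⟨hg, h⟩)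
  have h3 : 2 * k ≤ 2 ^ X.card := by rw [hc]; exact Nat.lt_two_pow_self.le
  have h4 := Nat.mul_le_mul_right (cnt bE (⋂ x ∈ X, half x b) m) h3
  have h5 := Nat.mul_le_mul_left (2 * k) h2
  nlinarith

lemma split_FF : Split FF := by
  intro S hS
  let bad : Set EE → Set (ℕ → Bool) := fun Z =>
    {x | ¬ Null bE NN Z ∧ (Null bE NN (Z \ half x true) ∨ Null bE NN (Z \ half x false))}
  have hfin : ∀ Z, (bad Z).Finite := by
    intro Z
    by_cases hZ : Null bE NN Z
    · convert finite_empty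
      ext x; simp [bad, hZ]
    · exact ((bad_finite hZ true).union (bad_finite hZ false)).subset fun x hx => hx.2
  have hcard : #(⋃ Z : S, bad Z) < continuum := by
    refine lt_of_le_of_lt mk_iUnion_le_sum_mk ?_
    refine lt_of_le_of_lt (sum_le_sum _ (fun _ => ℵ₀) fun s => (hfin s).lt_aleph0.le) ?_
    rw [sum_const']
    exact mul_lt_of_lt aleph0_le_continuum hS aleph0_lt_continuum
  have hne : (⋃ Z : S, bad Z) ≠ Set.univ := by
    intro h
    rw [h, mk_univ] at hcard
    simp at hcard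
  obtain ⟨x, hx⟩ := (ne_univ_iff_exists_notMem _).1 hne
  refine ⟨half x true, fun Z hZ hpos => ?_⟩
  rw [freq_FF] at hpos
  have h1 : x ∉ bad Z := fun h => hx (mem_iUnion.2 ⟨⟨Z, hZ⟩, h⟩)
  have h2 : ¬ Null bE NN (Z \ half x true) := fun h => h1 ⟨hpos, Or.inl h⟩
  have h3 : ¬ Null bE NN (Z \ half x false) := fun h => h1 ⟨hpos, Or.inr h⟩
  refine ⟨((freq_FF _).2 h3).mono fun e he => ⟨he.1, ?_⟩, (freq_FF _).2 h2⟩
  simpa [half] using he.2

end Crest.Agent.IM
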