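import Crest.Agent.IM.Luzin

/-! The gadget and the double ray of gadgets. -/

set_option autoImplicit false

namespace Crest.Agent.IM

open Set Filter

/-- a set on the doubled ground set from its two parts -/
def pack (a b : Set EE) : Set (EE ⊕ EE) := {g | Sum.elim (· ∈ a) (· ∈ b) g}

lemma pack_compl (a b : Set EE) : (pack a b)ᶜ = pack aᶜ bᶜ := by
  ext (g | g) <;> simp [pack]

lemma null_diff (X Y : Set (EE ⊕ EE)) : Null bG NN (X \ Y) ↔
    Le FF (Sum.inl ⁻¹' X) (Sum.inl ⁻¹' Y) ∧ Le FF (Sum.inr ⁻¹' X) (Sum.inr ⁻¹' Y) := by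
  rw [null_G, le_FF, le_FF]
  rfl

/-- A self-dual uniform base system on two copies of a countable set such that no two rays of
bases, sharing their first inner part, cover all parts. -/
theorem gadget : ∃ 𝓑 : Set (EE ⊕ EE) → Prop, USys 𝓑 ∧
    ∀ R L : ℕ → Set (EE ⊕ EE), (∀ k, 𝓑 (R k)) → (∀ k, 𝓑 (L k)) →
      (∀ k e, Sum.inr e ∈ R k ∨ Sum.inl e ∈ R (k + 1)) →
      (∀ k e, Sum.inr e ∈ L k ∨ Sum.inl e ∈ L (k + 1)) →
      (∀ e, Sum.inl e ∈ R 0 ∨ Sum.inl e ∈ L 0) → False := by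
  obtain ⟨Λ, _, _, s, hI, hS⟩ := macro_exists FF split_FF
  let 𝒜 : Set (Set (EE ⊕ EE)) := {a | ∃ p q β, Sum.inr (p, q, β) ∈ s ∧ a = pack p qᶜ}
  have lowq : ∀ p q β, Sum.inr (p, q, β) ∈ s → Low FF s q := by
    intro p q β h
    obtain ⟨g, l, h1, -, h2⟩ := hI.p2 p q β h
    exact ⟨g, l, h1, h2⟩
  refine ⟨_, blocksG.usys 𝒜 ?_ ?_ ?_ ?_, ?_⟩
  · rintro _ ⟨p, q, β, h, rfl⟩ _ ⟨p', q', β', h', rfl⟩ hn
    rw [null_diff] at hn
    obtain ⟨rfl, rfl⟩ := hI.anti _ _ _ _ _ _ h h' hn.1 (Le.of_compl hn.2)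
    rfl
  · rintro _ ⟨p, q, β, h, rfl⟩ _ ⟨p', q', β', h', rfl⟩ hn
    rw [pack_compl, compl_compl, null_diff] at hn
    exact hI.not_low (lowq _ _ _ h) (lowq _ _ _ h') hn.2
  · rintro _ ⟨p, q, β, h, rfl⟩ _ ⟨p', q', β', h', rfl⟩ hn
    rw [pack_compl, null_diff] at hn
    exact hI.not_low (hI.p1 _ _ _ h) (hI.p1 _ _ _ h') hn.1
  · intro X Y hXY
    obtain ⟨a₁, a₂, hc, h⟩ := hS (Sum.inl ⁻¹' X, Sum.inr ⁻¹' X, Sum.inl ⁻¹' Y, Sum.inr ⁻¹' Y)
      (Le.of_subset (preimage_mono hXY)) (Le.of_subset (preimage_mono hXY))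
    refine ⟨pack a₁ a₂, ?_, ?_⟩
    · obtain ⟨p, q, β, h1, ⟨rfl, rfl⟩ | ⟨rfl, rfl⟩⟩ := hc
      · exact Or.inl ⟨_, _, β, h1, rfl⟩
      · exact Or.inr ⟨_, _, β, h1, by rw [pack_compl, compl_compl]⟩
    · simp only [null_diff]
      rcases h with h | h | h
      · exact Or.inl h
      · exact Or.inr (Or.inl ⟨⟨h.1, h.2.1⟩, h.2.2⟩)
      · exact Or.inr (Or.inr h)
  have typ : ∀ B, (∃ a ∈ 𝒜, LB bG NN a B ∨ LB bG NN a Bᶜ) → Low FF s (Sum.inl ⁻¹' B) ∨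
      ∃ p q β, Sum.inr (p, q, β) ∈ s ∧ Le FF p (Sum.inl ⁻¹' B)ᶜ ∧ Le FF (Sum.inl ⁻¹' B)ᶜ p ∧
        Le FF (Sum.inr ⁻¹' B) q := by
    rintro B ⟨_, ⟨p, q, β, h, rfl⟩, hB | hB⟩
    · exact Or.inl (Low.of_le (hI.p1 _ _ _ h) ((null_diff _ _).1 hB.2.1).1)
    · exact Or.inr ⟨p, q, β, h, ((null_diff _ _).1 hB.1).1, ((null_diff _ _).1 hB.2.1).1,
        Le.of_compl ((null_diff _ _).1 hB.1).2⟩
  have desc : ∀ R : ℕ → Set (EE ⊕ EE), (∀ k, ∃ a ∈ 𝒜, LB bG NN a (R k) ∨ LB bG NN a (R k)ᶜ) →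
      (∀ k e, Sum.inr e ∈ R k ∨ Sum.inl e ∈ R (k + 1)) →
      ∀ l k g, Sum.inl (g, l) ∈ s → ¬ Le FF (Sum.inl ⁻¹' R k)ᶜ g := by
    intro R hR hc l
    induction l using WellFoundedLT.induction with
    | ind l ih =>
      intro k g hg hle
      rcases typ _ (hR k) with h | ⟨p, q, β, h, h1, -, h3⟩
      · exact hI.not_low h ⟨g, l, hg, Le.rfl⟩ hle
      · have hβ : β < l := not_le.1 fun hh => hI.p3 _ _ _ h g l hg hh (h1.trans hle)
        obtain ⟨g', l', k1, k2, k3⟩ := hI.p2 _ _ _ h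
        refine ih l' (k2.trans_lt hβ) (k + 1) g' k1 (((Le.of_subset ?_).trans h3).trans k3)
        exact fun e he => (hc k e).resolve_right he
  intro R L hR hL hRc hLc h0
  rcases typ _ (hR 0) with ⟨g, l, hg, h⟩ | ⟨p, q, β, h, -, h2, -⟩
  · exact desc L hL hLc l 0 g hg ((Le.of_subset fun e he => (h0 e).resolve_right he).trans h)
  · obtain ⟨g, l, hg, h3⟩ := hI.p1 _ _ _ h
    exact desc R hR hRc l 0 g hg (h2.trans h3)

/-- inner edge of a vertex of the double ray -/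
def inn (k : ℤ) : ℤ := if 1 ≤ k then k - 1 else k

/-- outer edge of a vertex of the double ray -/
def out (k : ℤ) : ℤ := if 1 ≤ k then k else k - 1

/-- the two edges at a vertex -/
def emb (k : ℤ) : EE ⊕ EE → ℤ × EE := Sum.elim (fun e => (inn k, e)) (fun e => (out k, e))

lemma emb_bij (r : ℤ) : Function.Bijective fun x : ℤ × (EE ⊕ EE) => emb (2 * x.1 + r) x.2 := by
  constructor
  · rintro ⟨j, e | e⟩ ⟨j', e' | e'⟩ h <;>
      simp only [emb, inn, out, Sum.elim_inl, Sum.elim_inr, Prod.mk.injEq] at h <;>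
      obtain ⟨h1, rfl⟩ := h
    · have : j = j' := by split_ifs at h1 <;> omega
      rw [this]
    · exfalso; split_ifs at h1 <;> omega
    · exfalso; split_ifs at h1 <;> omega
    · have : j = j' := by split_ifs at h1 <;> omega
      rw [this]
  · rintro ⟨i, e⟩
    obtain ⟨j, hj⟩ : ∃ j : ℤ, 2 * j + r = i ∨ 2 * j + r = i + 1 := ⟨(i + 1 - r) / 2, by omega⟩
    by_cases h : inn (2 * j + r) = i
    · exact ⟨(j, Sum.inl e), by simp [emb, h]⟩
    · refine ⟨(j, Sum.inr e), ?_⟩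
      have : out (2 * j + r) = i := by
        unfold inn at h
        unfold out
        split_ifs at h ⊢ <;> omega
      simp [emb, this]

theorem exists_pair : ∃ M₀ M₁ : Matroid ℕ, M₀.E = univ ∧ M₁.E = univ ∧ M₀.dual = M₀ ∧
    M₁.dual = M₁ ∧ ∀ I₀ I₁ : Set ℕ, M₀.Indep I₀ → M₁.Indep I₁ → I₀ ∪ I₁ ≠ univ := by
  obtain ⟨𝓑, hU, hno⟩ := gadget
  obtain ⟨φ⟩ : Nonempty (ℤ × EE ≃ ℕ) := nonempty_equiv_of_countable
  let Ψ : ℤ → ℤ × (EE ⊕ EE) ≃ ℕ := fun r => (Equiv.ofBijective _ (emb_bij r)).trans φ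
  refine ⟨sumMatroid hU (Ψ 0), sumMatroid hU (Ψ 1), rfl, rfl, sumMatroid_dual _ _,
    sumMatroid_dual _ _, ?_⟩
  rintro I₀ I₁ ⟨B₀, hB₀, hI₀⟩ ⟨B₁, hB₁, hI₁⟩ hcov
  let D : ℤ → Set ℕ := fun k => if k % 2 = 0 then B₀ else B₁
  let V : ℤ → Set (EE ⊕ EE) := fun k => {g | φ (emb k g) ∈ D k}
  have hV : ∀ k, 𝓑 (V k) := by
    intro k
    by_cases hk : k % 2 = 0
    · have e1 : 2 * (k / 2) + 0 = k := by omega
      have := hB₀ (k / 2)
      convert this using 1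
      ext g
      simp only [V, D, hk, if_true, tr, Ψ, mem_ofPred_eq, Equiv.trans_apply,
        Equiv.ofBijective_apply, e1]
    · have e1 : 2 * (k / 2) + 1 = k := by omega
      have := hB₁ (k / 2)
      convert this using 1
      ext g
      simp only [V, D, hk, if_false, tr, Ψ, mem_ofPred_eq, Equiv.trans_apply,
        Equiv.ofBijective_apply, e1]
  have hD : ∀ k k' : ℤ, k' = k + 1 ∨ k = k' + 1 → ∀ n, n ∈ D k ∨ n ∈ D k' := by
    intro k k' hk n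
    have hn : n ∈ I₀ ∪ I₁ := hcov ▸ mem_univ n
    by_cases h : k % 2 = 0
    · have h' : ¬ k' % 2 = 0 := by omega
      simp only [D, h, h', if_true, if_false]
      exact hn.imp (fun h => hI₀ h) (fun h => hI₁ h)
    · have h' : k' % 2 = 0 := by omega
      simp only [D, h, h', if_true, if_false]
      exact (hn.imp (fun h => hI₀ h) (fun h => hI₁ h)).symm
  refine hno (fun k => V (k + 1)) (fun k => V (-k)) (fun k => hV _) (fun k => hV _) ?_ ?_ ?_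
  · intro k e
    have h1 : out ((k : ℤ) + 1) = k + 1 := by unfold out; split_ifs <;> omega
    have h2 : inn (((k + 1 : ℕ) : ℤ) + 1) = k + 1 := by unfold inn; split_ifs <;> omega
    simp only [V, mem_ofPred_eq, emb, Sum.elim_inl, Sum.elim_inr, h1, h2]
    exact hD _ _ (by omega) _
  · intro k e
    have h1 : out (-(k : ℤ)) = -k - 1 := by unfold out; split_ifs <;> omega
    have h2 : inn (-((k + 1 : ℕ) : ℤ)) = -k - 1 := by unfold inn; split_ifs <;> omega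
    simp only [V, mem_ofPred_eq, emb, Sum.elim_inl, Sum.elim_inr, h1, h2]
    exact hD _ _ (by omega) _
  · intro e
    have h1 : inn (((0 : ℕ) : ℤ) + 1) = 0 := by unfold inn; split_ifs <;> omega
    have h2 : inn (-((0 : ℕ) : ℤ)) = 0 := by unfold inn; split_ifs <;> omega
    simp only [V, mem_ofPred_eq, emb, Sum.elim_inl, h1, h2]
    exact hD _ _ (by omega) _

end Crest.Agent.IM
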