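import Mathlib

/-! Self-dual uniform base systems and the direct-sum matroid built from copies of one. -/

set_option autoImplicit false

namespace Crest.Agent.IM

open Set

/-- A complement-closed uniform base system on a type. -/
structure USys {G : Type*} (𝓑 : Set G → Prop) : Prop where
  anti : ∀ B B', 𝓑 B → 𝓑 B' → B ⊆ B' → B = B'
  exch : ∀ B e f, 𝓑 B → e ∈ B → f ∉ B → 𝓑 (insert f (B \ {e}))
  compl : ∀ B, 𝓑 B → 𝓑 Bᶜ
  ivp : ∀ X Y, X ⊆ Y → ∃ B, 𝓑 B ∧ (B ⊆ X ∨ (X ⊆ B ∧ B ⊆ Y) ∨ Y ⊆ B)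

variable {G J α : Type*}

/-- the trace of a set on the `j`-th part -/
def tr (Ψ : J × G ≃ α) (j : J) (B : Set α) : Set G := {g | Ψ (j, g) ∈ B}

lemma tr_mono (Ψ : J × G ≃ α) (j : J) {B B' : Set α} (h : B ⊆ B') : tr Ψ j B ⊆ tr Ψ j B' :=
  fun _ hg => h hg

lemma subset_of_tr (Ψ : J × G ≃ α) {B B' : Set α} (h : ∀ j, tr Ψ j B ⊆ tr Ψ j B') : B ⊆ B' := by
  intro a ha
  obtain ⟨⟨j, g⟩, rfl⟩ := Ψ.surjective a
  exact h j ha

/-- glue sets on the parts -/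
def glue (Ψ : J × G ≃ α) (F : J → Set G) : Set α := {a | (Ψ.symm a).2 ∈ F (Ψ.symm a).1}

lemma tr_glue (Ψ : J × G ≃ α) (F : J → Set G) (j : J) : tr Ψ j (glue Ψ F) = F j := by
  ext g; simp [tr, glue]

/-- The direct sum of copies of a uniform base system. -/
def sumMatroid {𝓑 : Set G → Prop} (h : USys 𝓑) (Ψ : J × G ≃ α) : Matroid α where
  E := univ
  IsBase B := ∀ j, 𝓑 (tr Ψ j B)
  Indep I := ∃ B, (∀ j, 𝓑 (tr Ψ j B)) ∧ I ⊆ B
  indep_iff' := fun _ => Iff.rfl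
  exists_isBase := by
    obtain ⟨B, hB, -⟩ := h.ivp ∅ ∅ Subset.rfl
    exact ⟨glue Ψ fun _ => B, fun j => by rw [tr_glue]; exact hB⟩
  isBase_exchange := by
    intro B B' hB hB' a ha
    obtain ⟨⟨j, e⟩, rfl⟩ := Ψ.surjective a
    have hne : ¬ tr Ψ j B' ⊆ tr Ψ j B := by
      intro hs
      have := h.anti _ _ (hB' j) (hB j) hs
      have h1 : e ∈ tr Ψ j B := ha.1
      rw [← this] at h1
      exact ha.2 h1
    obtain ⟨f, hf1, hf2⟩ := not_subset.1 hne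
    refine ⟨Ψ (j, f), ⟨hf1, hf2⟩, fun i => ?_⟩
    by_cases hi : i = j
    · subst hi
      have : tr Ψ i (insert (Ψ (i, f)) (B \ {Ψ (i, e)})) = insert f (tr Ψ i B \ {e}) := by
        ext g; simp [tr]
      rw [this]
      exact h.exch _ _ _ (hB i) ha.1 hf2
    · have : tr Ψ i (insert (Ψ (j, f)) (B \ {Ψ (j, e)})) = tr Ψ i B := by
        ext g; simp [tr, hi]
      rw [this]
      exact hB i
  maximality := by
    intro X _ I hI hIX
    obtain ⟨B₀, hB₀, hIB⟩ := hI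
    have key : ∀ j, ∃ K : Set G, tr Ψ j I ⊆ K ∧ K ⊆ tr Ψ j X ∧ (∃ B, 𝓑 B ∧ K ⊆ B) ∧
        ∀ K', K ⊆ K' → K' ⊆ tr Ψ j X → (∃ B, 𝓑 B ∧ K' ⊆ B) → K' ⊆ K := by
      intro j
      obtain ⟨B, hB, hc⟩ := h.ivp (tr Ψ j I) (tr Ψ j X) (tr_mono Ψ j hIX)
      have fin : ∀ B, 𝓑 B → tr Ψ j I ⊆ B → B ⊆ tr Ψ j X → ∃ K : Set G, tr Ψ j I ⊆ K ∧
          K ⊆ tr Ψ j X ∧ (∃ B, 𝓑 B ∧ K ⊆ B) ∧
          ∀ K', K ⊆ K' → K' ⊆ tr Ψ j X → (∃ B, 𝓑 B ∧ K' ⊆ B) → K' ⊆ K := by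
        intro B hB h1 h2
        refine ⟨B, h1, h2, ⟨B, hB, Subset.rfl⟩, ?_⟩
        rintro K' hK1 - ⟨B', hB', hK'⟩
        rw [h.anti B B' hB hB' (hK1.trans hK')]
        exact hK'
      rcases hc with hc | hc | hc
      · have h1 : B = tr Ψ j B₀ := h.anti _ _ hB (hB₀ j) (hc.trans (tr_mono Ψ j hIB))
        exact fin B hB (h1 ▸ tr_mono Ψ j hIB) (hc.trans (tr_mono Ψ j hIX))
      · exact fin B hB hc.1 hc.2
      · exact ⟨tr Ψ j X, tr_mono Ψ j hIX, Subset.rfl, ⟨B, hB, hc⟩, fun K' _ h2 _ => h2⟩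
    choose K hK1 hK2 hK3 hK4 using key
    choose Bs hBs hKB using hK3
    refine ⟨glue Ψ K, subset_of_tr Ψ fun j => by rw [tr_glue]; exact hK1 j, ?_, ?_⟩
    · refine ⟨⟨glue Ψ Bs, fun j => by rw [tr_glue]; exact hBs j,
        subset_of_tr Ψ fun j => by rw [tr_glue, tr_glue]; exact hKB j⟩,
        subset_of_tr Ψ fun j => by rw [tr_glue]; exact hK2 j⟩
    · rintro L ⟨⟨B, hB, hLB⟩, hLX⟩ hle
      refine subset_of_tr Ψ fun j => ?_
      rw [tr_glue]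
      refine hK4 j _ ?_ (tr_mono Ψ j hLX) ⟨_, hB j, tr_mono Ψ j hLB⟩
      have := tr_mono Ψ j hle
      rwa [tr_glue] at this
  subset_ground := fun _ _ => subset_univ _

lemma sumMatroid_E {𝓑 : Set G → Prop} (h : USys 𝓑) (Ψ : J × G ≃ α) :
    (sumMatroid h Ψ).E = univ := rfl

lemma sumMatroid_isBase {𝓑 : Set G → Prop} (h : USys 𝓑) (Ψ : J × G ≃ α) (B : Set α) :
    (sumMatroid h Ψ).IsBase B ↔ ∀ j, 𝓑 (tr Ψ j B) := Iff.rfl

lemma sumMatroid_dual {𝓑 : Set G → Prop} (h : USys 𝓑) (Ψ : J × G ≃ α) :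
    (sumMatroid h Ψ).dual = sumMatroid h Ψ := by
  refine Matroid.ext_isBase rfl fun B _ => ?_
  rw [Matroid.dual_isBase_iff', sumMatroid_E, sumMatroid_isBase, sumMatroid_isBase]
  have : ∀ j, tr Ψ j (univ \ B) = (tr Ψ j B)ᶜ := by
    intro j; ext g; simp [tr]
  simp only [this, subset_univ, and_true]
  constructor
  · intro hB j
    simpa using h.compl _ (hB j)
  · intro hB j
    exact h.compl _ (hB j)

/-- For a self-dual matroid on everything, a packing/covering datum gives a spanning set. -/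
lemma spanning_of_pc {M : Matroid α} (hE : M.E = univ) (hd : M.dual = M) {P C S I : Set α}
    (hPC : P ∪ C = univ) (hS : (M.restrict P).closure S = P) (hSP : S ⊆ P)
    (hI : (M.contract Cᶜ).Indep I) : M.Indep (S ∪ (C \ I))ᶜ := by
  have h1 : P ⊆ M.closure S := by
    rw [Matroid.restrict_closure_eq M hSP (by rw [hE]; exact subset_univ _)] at hS
    rw [← hS]
    exact inter_subset_left
  have h2 : C ⊆ M.closure (C \ I) := by
    have e1 : M.contract Cᶜ = (M.restrict C).dual := by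
      have : M.contract Cᶜ = (M.dual.delete Cᶜ).dual := rfl
      rw [this, hd, Matroid.delete_eq_restrict, hE]
      simp
    rw [e1] at hI
    have hco : (M.restrict C).Coindep I := hI
    have hsp := hco.compl_spanning
    have := hsp.closure_eq
    rw [Matroid.restrict_ground_eq,
      Matroid.restrict_closure_eq M sdiff_subset (by rw [hE]; exact subset_univ _)] at this
    rw [← this]
    intro x hx
    rw [this] at hx ⊢
    rw [← this] at hx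
    exact hx.1
  have h3 : M.Spanning (S ∪ (C \ I)) := by
    rw [Matroid.spanning_iff_ground_subset_closure (by rw [hE]; exact subset_univ _), hE, ← hPC]
    exact union_subset (h1.trans (M.closure_subset_closure subset_union_left))
      (h2.trans (M.closure_subset_closure subset_union_right))
  have h4 := h3.compl_coindep
  rw [Matroid.coindep_def, hd, hE] at h4
  simpa [compl_eq_univ_sdiff] using h4

lemma no_partition {M₀ M₁ : Matroid α} (hE₀ : M₀.E = univ) (hE₁ : M₁.E = univ)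
    (hd₀ : M₀.dual = M₀) (hd₁ : M₁.dual = M₁)
    (hcov : ∀ I₀ I₁ : Set α, M₀.Indep I₀ → M₁.Indep I₁ → I₀ ∪ I₁ ≠ univ) :
    ¬ ∃ P C S₀ S₁ I₀ I₁ : Set α, P ∪ C = Set.univ ∧ Disjoint P C ∧
          S₀ ⊆ P ∧ S₁ ⊆ P ∧ Disjoint S₀ S₁ ∧
          (M₀.restrict P).closure S₀ = P ∧ (M₁.restrict P).closure S₁ = P ∧
          I₀ ⊆ C ∧ I₁ ⊆ C ∧ (M₀.contract Cᶜ).Indep I₀ ∧ (M₁.contract Cᶜ).Indep I₁ ∧
          I₀ ∪ I₁ = C := by
  rintro ⟨P, C, S₀, S₁, I₀, I₁, hPC, hdis, hS₀, hS₁, hS, hc₀, hc₁, -, -, hI₀, hI₁, hI⟩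
  refine hcov _ _ (spanning_of_pc hE₀ hd₀ hPC hc₀ hS₀ hI₀)
    (spanning_of_pc hE₁ hd₁ hPC hc₁ hS₁ hI₁) ?_
  rw [← compl_inter, compl_univ_iff, eq_empty_iff_forall_notMem]
  rintro x ⟨h0 | h0, h1 | h1⟩
  · exact disjoint_left.1 hS h0 h1
  · exact disjoint_left.1 hdis (hS₀ h0) h1.1
  · exact disjoint_left.1 hdis (hS₁ h1) h0.1
  · have := h0.1
    rw [← hI] at this
    rcases this with h | h
    · exact h0.2 h
    · exact h1.2 h

end Crest.Agent.IM
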